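import Vale.Agent.P223.MathlibUsed
import Mathlib.Analysis.Matrix.Order
import Mathlib.Analysis.Matrix.Normed
import Mathlib.Analysis.Calculus.InverseFunctionTheorem.ContDiff

/-! Smoothness of the square root of positive definite matrices. -/

namespace Vale.Agent.P223.H850

open Matrix
open scoped ContDiff Topology

variable {n : ℕ}

theorem inj_aux {S T D : Matrix (Fin n) (Fin n) ℝ} (hS : S.PosSemidef) (hT : T.PosDef)
    (h : D * S + T * D = 0) : D = 0 := by
  have h1 : 0 ≤ (D * S * Dᵀ).trace := by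
    have := (hS.mul_mul_conjTranspose_same D).trace_nonneg
    simpa [Matrix.conjTranspose_eq_transpose_of_trivial] using this
  have h2 : (Dᵀ * (D * S + T * D)).trace = 0 := by rw [h]; simp
  have h3 : (Dᵀ * (D * S)).trace = (D * S * Dᵀ).trace := Matrix.trace_mul_comm _ _
  rw [Matrix.mul_add, Matrix.trace_add, h3] at h2
  have h4 : (Dᵀ * (T * D)).trace = ∑ j, (fun k => D k j) ⬝ᵥ (T *ᵥ fun k => D k j) := by
    rw [Matrix.trace]
    refine Finset.sum_congr rfl fun j _ => ?_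
    simp only [Matrix.diag_apply, Matrix.mul_apply, Matrix.transpose_apply, dotProduct,
      Matrix.mulVec]
  have h5 : ∀ j, 0 ≤ (fun k => D k j) ⬝ᵥ (T *ᵥ fun k => D k j) := by
    intro j
    have := hT.posSemidef.dotProduct_mulVec_nonneg (fun k => D k j)
    simpa using this
  have h6 : ∑ j, (fun k => D k j) ⬝ᵥ (T *ᵥ fun k => D k j) = 0 :=
    le_antisymm (by rw [h4] at h2; linarith) (Finset.sum_nonneg fun j _ => h5 j)
  ext k j
  by_contra hne
  have h7 := (Finset.sum_eq_zero_iff_of_nonneg fun j _ => h5 j).1 h6 j (Finset.mem_univ j)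
  have h8 : (fun k => D k j) ≠ 0 := fun h => hne (congrFun h k)
  have h9 := hT.dotProduct_mulVec_pos h8
  rw [star_trivial, h7] at h9
  exact lt_irrefl _ h9

theorem sqrt_unique {S T : Matrix (Fin n) (Fin n) ℝ} (hS : S.PosSemidef) (hT : T.PosDef)
    (h : S * S = T * T) : S = T := by
  have h1 : (S - T) * S + T * (S - T) = 0 := by
    rw [Matrix.sub_mul, Matrix.mul_sub, h]
    abel
  exact sub_eq_zero.1 (inj_aux hS hT h1)

section
open scoped MatrixOrder

theorem exists_sqrt {P : Matrix (Fin n) (Fin n) ℝ} (hP : P.PosDef) :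
    ∃ S : Matrix (Fin n) (Fin n) ℝ, S.PosDef ∧ S * S = P := by
  have h1 : (CFC.sqrt P).PosSemidef := (CFC.sqrt_nonneg P).posSemidef
  have h2 : CFC.sqrt P * CFC.sqrt P = P := CFC.sqrt_mul_sqrt_self P hP.posSemidef.nonneg
  refine ⟨CFC.sqrt P, ?_, h2⟩
  refine h1.posDef_iff_det_ne_zero.2 fun h => ?_
  have h3 := hP.det_pos
  rw [← h2, Matrix.det_mul, h, zero_mul] at h3
  exact lt_irrefl _ h3

end

open Classical in
/-- the square root -/
noncomputable def rt (P : Matrix (Fin n) (Fin n) ℝ) : Matrix (Fin n) (Fin n) ℝ :=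
  if h : P.PosDef then (exists_sqrt h).choose else 0

theorem rt_posDef {P : Matrix (Fin n) (Fin n) ℝ} (hP : P.PosDef) : (rt P).PosDef := by
  unfold rt; rw [dif_pos hP]; exact (exists_sqrt hP).choose_spec.1

theorem rt_mul {P : Matrix (Fin n) (Fin n) ℝ} (hP : P.PosDef) : rt P * rt P = P := by
  unfold rt; rw [dif_pos hP]; exact (exists_sqrt hP).choose_spec.2

theorem rt_eq {P S : Matrix (Fin n) (Fin n) ℝ} (hP : P.PosDef) (hS : S.PosSemidef)
    (h : S * S = P) : rt P = S :=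
  (sqrt_unique hS (rt_posDef hP) (by rw [h, rt_mul hP])).symm

theorem rt_symm {P : Matrix (Fin n) (Fin n) ℝ} (hP : P.PosDef) : (rt P)ᵀ = rt P := by
  have := (rt_posDef hP).isHermitian
  rwa [Matrix.IsHermitian, Matrix.conjTranspose_eq_transpose_of_trivial] at this

theorem rt_entry {P : Matrix (Fin n) (Fin n) ℝ} (hP : P.PosDef) (i j : Fin n) :
    rt P i j ^ 2 ≤ P i i := by
  have h1 : (rt P * (rt P)ᵀ) i i = P i i := by rw [rt_symm hP, rt_mul hP]
  rw [← h1, Matrix.mul_apply]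
  simp only [Matrix.transpose_apply, ← sq]
  exact Finset.single_le_sum (f := fun j => rt P i j ^ 2) (fun _ _ => sq_nonneg _)
    (Finset.mem_univ j)

theorem psd_of_tendsto {Y : Type*} {l : Filter Y} [l.NeBot]
    {u : Y → Matrix (Fin n) (Fin n) ℝ} {z : Matrix (Fin n) (Fin n) ℝ}
    (h : Filter.Tendsto u l (𝓝 z)) (hu : ∀ᶠ y in l, (u y).PosSemidef) : z.PosSemidef := by
  refine Matrix.PosSemidef.of_dotProduct_mulVec_nonneg ?_ fun v => ?_
  · rw [Matrix.IsHermitian, Matrix.conjTranspose_eq_transpose_of_trivial]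
    have h1 : Filter.Tendsto (fun y => (u y)ᵀ) l (𝓝 zᵀ) :=
      (continuous_id.matrix_transpose.tendsto z).comp h
    refine tendsto_nhds_unique_of_eventuallyEq h1 h ?_
    filter_upwards [hu] with y hy
    have := hy.isHermitian
    rwa [Matrix.IsHermitian, Matrix.conjTranspose_eq_transpose_of_trivial] at this
  · rw [star_trivial]
    have h1 : Continuous fun S : Matrix (Fin n) (Fin n) ℝ => v ⬝ᵥ (S *ᵥ v) := by
      fun_prop
    refine ge_of_tendsto ((h1.tendsto z).comp h) ?_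
    filter_upwards [hu] with y hy
    have := hy.dotProduct_mulVec_nonneg v
    simpa using this

theorem tendsto_rt {Y : Type*} {l : Filter Y} {P : Y → Matrix (Fin n) (Fin n) ℝ}
    {P₀ : Matrix (Fin n) (Fin n) ℝ} (h : Filter.Tendsto P l (𝓝 P₀)) (h0 : P₀.PosDef)
    (hP : ∀ᶠ y in l, (P y).PosDef) : Filter.Tendsto (fun y => rt (P y)) l (𝓝 (rt P₀)) := by
  set c : ℝ := √(∑ i, |P₀ i i| + 1) with hc
  have hK : IsCompact (Set.univ.pi fun _ : Fin n => Set.univ.pi fun _ : Fin n =>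
      Set.Icc (-c) c) := isCompact_univ_pi fun _ => isCompact_univ_pi fun _ => isCompact_Icc
  refine IsCompact.tendsto_nhds_of_unique_mapClusterPt (s := Set.univ.pi fun _ : Fin n =>
    Set.univ.pi fun _ : Fin n => Set.Icc (-c) c) hK ?_ ?_
  · have h1 : ∀ᶠ y in l, ∀ i, P y i i < P₀ i i + 1 := by
      refine Filter.eventually_all.2 fun i => ?_
      have h2 : Filter.Tendsto (fun y => P y i i) l (𝓝 (P₀ i i)) :=
        ((continuous_id.matrix_elem i i).tendsto P₀).comp h
      exact h2.eventually (gt_mem_nhds (by linarith))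
    filter_upwards [h1, hP] with y hy1 hy2 i _ j _
    have h3 := rt_entry hy2 i j
    have h4 : |P₀ i i| ≤ ∑ i, |P₀ i i| :=
      Finset.single_le_sum (f := fun i => |P₀ i i|) (fun _ _ => abs_nonneg _) (Finset.mem_univ i)
    have h5 : rt (P y) i j ^ 2 ≤ ∑ i, |P₀ i i| + 1 := by
      have := hy1 i
      have := le_abs_self (P₀ i i)
      linarith
    have h6 : |rt (P y) i j| ≤ c := Real.abs_le_sqrt h5
    exact abs_le.1 h6
  · intro (z : Matrix (Fin n) (Fin n) ℝ) _ hz
    obtain ⟨U, hU, hUz⟩ := mapClusterPt_iff_ultrafilter.1 hz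
    have h1 : z.PosSemidef := psd_of_tendsto hUz ((hP.filter_mono hU).mono fun y hy =>
      (rt_posDef hy).posSemidef)
    have h2 : Filter.Tendsto (fun y => rt (P y) * rt (P y)) U (𝓝 (z * z)) := by
      have h3 : Continuous fun S : Matrix (Fin n) (Fin n) ℝ => S * S := by fun_prop
      exact (h3.tendsto z).comp hUz
    have h4 : z * z = P₀ := by
      refine tendsto_nhds_unique_of_eventuallyEq h2 (h.mono_left hU) ?_
      filter_upwards [hP.filter_mono hU] with y hy using rt_mul hy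
    exact (rt_eq h0 h1 h4).symm

section
attribute [local instance] Matrix.linftyOpNormedRing Matrix.linftyOpNormedAlgebra

theorem contDiffAt_mat {E : Type*} [NormedAddCommGroup E] [NormedSpace ℝ E] {x₀ : E}
    {P : E → Matrix (Fin n) (Fin n) ℝ}
    (hP : ∀ i j, ContDiffAt ℝ ∞ (fun x => P x i j) x₀) : ContDiffAt ℝ ∞ P x₀ := by
  have h1 : P = fun x => ∑ i, ∑ j, P x i j • Matrix.single i j (1 : ℝ) := by
    funext x
    conv_lhs => rw [Matrix.matrix_eq_sum_single (P x)]
    refine Finset.sum_congr rfl fun i _ => Finset.sum_congr rfl fun j _ => ?_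
    rw [Matrix.smul_single, smul_eq_mul, mul_one]
  rw [h1]
  exact ContDiffAt.sum fun i _ => ContDiffAt.sum fun j _ => (hP i j).smul contDiffAt_const

theorem contDiffAt_rt {E : Type*} [NormedAddCommGroup E] [NormedSpace ℝ E] {x₀ : E}
    {P : E → Matrix (Fin n) (Fin n) ℝ}
    (hP : ∀ i j, ContDiffAt ℝ ∞ (fun x => P x i j) x₀) (hpos : ∀ᶠ x in 𝓝 x₀, (P x).PosDef)
    (i j : Fin n) : ContDiffAt ℝ ∞ (fun x => rt (P x) i j) x₀ := by
  have h0 : (P x₀).PosDef := hpos.self_of_nhds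
  have hPm := contDiffAt_mat hP
  set S₀ := rt (P x₀) with hS₀
  have hf : ContDiff ℝ ∞ fun S : Matrix (Fin n) (Fin n) ℝ => S * S := contDiff_id.mul contDiff_id
  -- the derivative
  set L : Matrix (Fin n) (Fin n) ℝ →ₗ[ℝ] Matrix (Fin n) (Fin n) ℝ :=
    LinearMap.mulLeft ℝ S₀ + LinearMap.mulRight ℝ S₀ with hL
  have hinj : Function.Injective L := by
    rw [← LinearMap.ker_eq_bot, LinearMap.ker_eq_bot']
    intro D hD
    refine inj_aux (rt_posDef h0).posSemidef (rt_posDef h0) ?_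
    rw [add_comm]
    exact hD
  set e : Matrix (Fin n) (Fin n) ℝ ≃L[ℝ] Matrix (Fin n) (Fin n) ℝ :=
    (LinearEquiv.ofInjectiveEndo L hinj).toContinuousLinearEquiv with he
  have hf' : HasFDerivAt (fun S : Matrix (Fin n) (Fin n) ℝ => S * S)
      (e : Matrix (Fin n) (Fin n) ℝ →L[ℝ] Matrix (Fin n) (Fin n) ℝ) S₀ := by
    have h1 := (hasFDerivAt_id (𝕜 := ℝ) S₀).mul' (hasFDerivAt_id (𝕜 := ℝ) S₀)
    refine h1.congr_fderiv ?_
    ext D : 1
    rfl
  have hfc : ContDiffAt ℝ ∞ (fun S : Matrix (Fin n) (Fin n) ℝ => S * S) S₀ := hf.contDiffAt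
  have hne : (∞ : WithTop ℕ∞) ≠ 0 := by simp
  have hg := hfc.to_localInverse hf' hne
  have hS : S₀ * S₀ = P x₀ := rt_mul h0
  rw [hS] at hg
  have hleft : ∀ᶠ S in 𝓝 S₀, hfc.localInverse hf' hne (S * S) = S :=
    (hfc.hasStrictFDerivAt' hf' hne).eventually_left_inverse
  have ht : Filter.Tendsto (fun x => rt (P x)) (𝓝 x₀) (𝓝 S₀) :=
    tendsto_rt hPm.continuousAt h0 hpos
  have hev : (fun x => rt (P x)) =ᶠ[𝓝 x₀] fun x => hfc.localInverse hf' hne (P x) := by
    filter_upwards [ht.eventually hleft, hpos] with x hx hx'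
    rw [rt_mul hx'] at hx
    exact hx.symm
  have hfin : ContDiffAt ℝ ∞ (fun x => rt (P x)) x₀ :=
    (hg.comp x₀ hPm).congr_of_eventuallyEq hev
  exact ((Matrix.entryLinearMap ℝ ℝ i j).toContinuousLinearMap.contDiff.contDiffAt).comp x₀ hfin

end

end Vale.Agent.P223.H850
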