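import Vale.Agent.P223.H850.Bump

/-! Strictly superharmonic functions off a small set, on closed manifolds. -/

namespace Vale.Agent.P223.H850

open scoped ContDiff Topology
open MeasureTheory Vale.Agent.P223.H Vale.Agent.P223.X Vale.Agent.P223.X.Avg

section loc
variable {n : ℕ} {G : E n → Matrix (Fin n) (Fin n) ℝ}

theorem lap_add {f g : E n → ℝ} (hf : ContDiff ℝ 2 f) (hg : ContDiff ℝ 2 g) (x : E n) :
    lap G (fun y => f y + g y) x = lap G f x + lap G g x := by
  have hdf : ∀ y, DifferentiableAt ℝ f y := fun y => (hf.differentiable (by simp)) y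
  have hdg : ∀ y, DifferentiableAt ℝ g y := fun y => (hg.differentiable (by simp)) y
  have h1 : ∀ j y, H.pd j (fun y => f y + g y) y = H.pd j f y + H.pd j g y := fun j y =>
    Bridge.pd_add (hdf y) (hdg y)
  have h2 : ∀ j, DifferentiableAt ℝ (fun y => H.pd j f y) x := fun j =>
    (Bridge.contDiff_pd hf (k := 1) (by norm_num) j).differentiable one_ne_zero x
  have h3 : ∀ j, DifferentiableAt ℝ (fun y => H.pd j g y) x := fun j =>
    (Bridge.contDiff_pd hg (k := 1) (by norm_num) j).differentiable one_ne_zero x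
  unfold lap
  simp only [h1]
  rw [← Finset.sum_add_distrib]
  refine Finset.sum_congr rfl fun i _ => ?_
  rw [← Finset.sum_add_distrib]
  refine Finset.sum_congr rfl fun j _ => ?_
  rw [Bridge.pd_add (h2 j) (h3 j)]
  simp only [mul_add, Finset.sum_add_distrib]
  ring

theorem lap_smul (r : ℝ) {f : E n → ℝ} (hf : ContDiff ℝ 2 f) (x : E n) :
    lap G (fun y => r * f y) x = r * lap G f x := by
  have := B25c.lap_comp (G := G) hf (φ := fun s => r * s) (φ' := fun _ => r) (φ'' := fun _ => 0)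
    (fun s => by simpa using (hasDerivAt_id s).const_mul r) (fun s => hasDerivAt_const s r) x
  simpa using this

theorem lap_const (r : ℝ) (x : E n) : lap G (fun _ => r) x = 0 := by
  have := B25c.lap_comp (G := G) (u := fun _ : E n => (0 : ℝ)) contDiff_const
    (φ := fun _ => r) (φ' := fun _ => 0) (φ'' := fun _ => 0)
    (fun s => hasDerivAt_const s r) (fun s => hasDerivAt_const s 0) x
  simpa using this

end loc

variable {n : ℕ} {M X Γ I : Type} [TopologicalSpace M] [TopologicalSpace X] [Group Γ]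
    [MulAction Γ X]

/-- smooth invariant functions -/
structure Sm (C : Cov n M X Γ I) (v : X → ℝ) : Prop where
  ck : C.Ck ∞ v
  inv : ∀ (γ : Γ) x, v (γ • x) = v x

section
variable {C : Cov n M X Γ I} {G : I → E n → Matrix (Fin n) (Fin n) ℝ}

theorem Sm.add {v w : X → ℝ} (hv : Sm C v) (hw : Sm C w) : Sm C (fun x => v x + w x) where
  ck γ i := (hv.ck γ i).add (hw.ck γ i)
  inv γ x := by rw [hv.inv, hw.inv]

theorem Sm.smul {v : X → ℝ} (r : ℝ) (hv : Sm C v) : Sm C (fun x => r * v x) where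
  ck γ i := contDiff_const.mul (hv.ck γ i)
  inv γ x := by rw [hv.inv]

theorem Sm.const (r : ℝ) : Sm C (fun _ : X => r) where
  ck _ _ := contDiff_const
  inv _ _ := rfl

theorem Ck_of_le {k l : WithTop ℕ∞} {v : X → ℝ} (h : C.Ck l v) (hkl : k ≤ l) : C.Ck k v :=
  fun γ i => (h γ i).of_le hkl

theorem Sm.cont {v : X → ℝ} (hv : Sm C v) : Continuous v :=
  Vale.Agent.P223.X.Ck_continuous C (Ck_of_le hv.ck (by simp))

theorem Sm.c2 {v : X → ℝ} (hv : Sm C v) : C.Ck 2 v := fun γ i => contDiff_infty.1 (hv.ck γ i) 2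

theorem Sm.c4 {v : X → ℝ} (hv : Sm C v) : C.Ck 4 v := fun γ i => contDiff_infty.1 (hv.ck γ i) 4

variable (hG : MetX C G)
include hG

theorem lapX_add {v w : X → ℝ} (hv : C.Ck 2 v) (hw : C.Ck 2 w) (x : X) :
    lapX C G (fun x => v x + w x) x = lapX C G v x + lapX C G w x := by
  obtain ⟨γ, i, y, -, rfl⟩ := C.cover x
  have h : C.Ck 2 (fun x => v x + w x) := fun γ i => (hv γ i).add (hw γ i)
  rw [Vale.Agent.P223.X.lapX_eq hG hv, Vale.Agent.P223.X.lapX_eq hG hw,
    Vale.Agent.P223.X.lapX_eq hG h]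
  exact lap_add (hv γ i) (hw γ i) y

theorem lapX_mul {v : X → ℝ} (r : ℝ) (hv : C.Ck 2 v) (x : X) :
    lapX C G (fun x => r * v x) x = r * lapX C G v x := by
  obtain ⟨γ, i, y, -, rfl⟩ := C.cover x
  have h : C.Ck 2 (fun x => r * v x) := fun γ i => contDiff_const.mul (hv γ i)
  rw [Vale.Agent.P223.X.lapX_eq hG hv, Vale.Agent.P223.X.lapX_eq hG h]
  exact lap_smul r (hv γ i) y

theorem lapX_const (r : ℝ) (x : X) : lapX C G (fun _ => r) x = 0 := by
  obtain ⟨γ, i, y, -, rfl⟩ := C.cover x
  have h : C.Ck 2 (fun _ => r) := fun _ _ => contDiff_const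
  rw [Vale.Agent.P223.X.lapX_eq hG h]
  exact lap_const r y

theorem Sm.lap_inv {v : X → ℝ} (hv : Sm C v) (γ : Γ) (x : X) :
    lapX C G v (γ • x) = lapX C G v x := by
  have := Vale.Agent.P223.X.lapX_smul hG hv.c2 γ x
  rw [show (fun z => v (γ • z)) = v from funext fun z => hv.inv γ z] at this
  exact this.symm

theorem Sm.gs_inv {v : X → ℝ} (hv : Sm C v) (γ : Γ) (x : X) :
    gsX C G v (γ • x) = gsX C G v x := by
  have := Vale.Agent.P223.X.gsX_smul hG v γ x
  rw [show (fun z => v (γ • z)) = v from funext fun z => hv.inv γ z] at this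
  exact this.symm

theorem Sm.lap_cont {v : X → ℝ} (hv : Sm C v) : Continuous (lapX C G v) :=
  Vale.Agent.P223.X.Ck_continuous C (Ck_of_le (Vale.Agent.P223.X.Ck_lapX hG hv.c4) (by simp))

theorem Sm.gs_cont {v : X → ℝ} (hv : Sm C v) : Continuous (gsX C G v) :=
  Vale.Agent.P223.X.Ck_continuous C (Ck_of_le (Vale.Agent.P223.X.Ck_gsX hG hv.c4) (by simp))

/-- the bump function on `X` -/
theorem bumpX [Finite I] [T2Space X] (i : I) (c : E n) {r R : ℝ} (hr : 0 < r) (hrR : r < R) :
    ∃ η : X → ℝ, Sm C η ∧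
      (∀ x, (∀ (γ : Γ) y, rh c y < r → γ • C.ψ i y ≠ x) → lapX C G η x ≤ 0) ∧
      (∀ (γ : Γ) y, r ≤ rh c y → rh c y < R → lapX C G η (γ • C.ψ i y) < 0) := by
  obtain ⟨h, h1, h2, h3, h4⟩ := bump (hG.smooth i) (hG.pos i) c hr hrR
  set k : E n → ℝ := fun y => -1 * h y with hk
  have hkc : ContDiff ℝ ∞ k := contDiff_const.mul h1
  have hks : HasCompactSupport k := by
    refine HasCompactSupport.of_support_subset_isCompact (isCompact_rh c R) fun y hy => ?_
    by_contra hcon
    refine hy ?_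
    rw [hk]
    simp only
    rw [h2 y (not_le.1 hcon).le, mul_zero]
  set η : X → ℝ := gav (fun _ : Γ => (1 : ℝ)) (C.ex i k) with hη
  have hSm : Sm C η := ⟨Ck_gav C _ _ (hcs_ex C hks) (Vale.Agent.P223.X.Ck_ex C hkc hks), fun γ x =>
    gav_one_inv _ γ x⟩
  have hval : ∀ y, η (C.ψ i y) = k y := by
    intro y
    rw [hη]
    unfold gav
    rw [finsum_eq_single _ (1 : Γ)]
    · rw [inv_one, one_smul, one_smul, Vale.Agent.P223.X.ex_ψ]
    · intro g hg
      have : g⁻¹ • C.ψ i y ∉ Set.range (C.ψ i) := by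
        rintro ⟨y', hy'⟩
        exact hg (inv_eq_one.1 (C.inj i g⁻¹ y y' hy'.symm))
      unfold Cov.ex
      rw [if_neg this, smul_zero]
  have hlap : ∀ (γ : Γ) y, lapX C G η (γ • C.ψ i y) = -lap (G i) h y := by
    intro γ y
    rw [Vale.Agent.P223.X.lapX_eq hG hSm.c2]
    have : C.rep η γ i = k := by
      funext z
      unfold Cov.rep
      rw [hSm.inv, hval]
    rw [this, hk, lap_smul _ (contDiff_infty.1 h1 2)]
    ring
  refine ⟨η, hSm, fun x hx => ?_, fun γ y hy1 hy2 => ?_⟩
  · by_cases hxr : ∃ (γ : Γ) (y : E n), γ • C.ψ i y = x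
    · obtain ⟨γ, y, rfl⟩ := hxr
      rw [hlap]
      have : r ≤ rh c y := by
        by_contra hcon
        exact hx γ y (not_le.1 hcon) rfl
      have := h3 y this
      linarith
    · -- `η` vanishes near `x`
      refine le_of_eq ?_
      obtain ⟨γ, j, y, -, rfl⟩ := C.cover x
      rw [Vale.Agent.P223.X.lapX_eq hG hSm.c2]
      have hK : IsCompact ((fun z => γ • C.ψ j z) '' Metric.closedBall y 1) :=
        (isCompact_closedBall y 1).image ((C.cont γ).comp (C.emb j).continuous)
      obtain ⟨F, hF⟩ := fold C (C.ex i k) (L := tsupport (C.ex i k)) (hcs_ex C hks)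
        (subset_tsupport _) hK
      have hts : ∀ s : Γ, s⁻¹ • γ • C.ψ j y ∉ tsupport (C.ex i k) := by
        intro s hs
        have h5 : tsupport (C.ex i k) ⊆ C.ψ i '' tsupport k := by
          refine closure_minimal (fun z hz => ?_)
            ((IsCompact.image (s := tsupport k) hks (C.emb i).continuous).isClosed)
          by_contra hcon
          refine hz ?_
          unfold Cov.ex
          split_ifs with hzr
          · obtain ⟨t, rfl⟩ := hzr
            rw [Vale.Agent.P223.X.co_ψ]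
            by_contra h0
            exact hcon ⟨t, subset_tsupport _ h0, rfl⟩
          · rfl
        obtain ⟨t, -, ht⟩ := h5 hs
        exact hxr ⟨s, t, by rw [ht, smul_inv_smul]⟩
      have hev : ∀ᶠ z in 𝓝 y, C.rep η γ j z = 0 := by
        have h6 : ∀ᶠ z in 𝓝 y, ∀ s ∈ F, C.ex i k (s⁻¹ • γ • C.ψ j z) = 0 := by
          rw [Filter.eventually_all_finset]
          intro s _
          have h7 := notMem_tsupport_iff_eventuallyEq.1 (hts s)
          have hc : Continuous fun z => s⁻¹ • γ • C.ψ j z :=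
            (C.cont s⁻¹).comp ((C.cont γ).comp (C.emb j).continuous)
          exact hc.continuousAt.eventually h7
        filter_upwards [h6, Metric.closedBall_mem_nhds y one_pos] with z hz hz'
        have h8 := hF (fun _ => 1) 1 (γ • C.ψ j z) ⟨z, hz', rfl⟩
        rw [one_smul] at h8
        unfold Cov.rep
        rw [hη, h8]
        exact Finset.sum_eq_zero fun s hs => by rw [hz s hs, smul_zero]
      rw [Bas2.lap_congr (g := fun _ => (0 : ℝ)) hev]
      exact lap_const 0 y
  · rw [hlap]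
    have := h4 y hy1 hy2
    linarith

end

end Vale.Agent.P223.H850
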