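import Vale.Agent.P223.H66.S3
import Vale.Agent.P223.X.MiniU

/-! Block UL: locally conformally flat metrics in boxes. -/

namespace Vale.Agent.P223.H850

open scoped ContDiff Topology ENNReal
open MeasureTheory Vale.Agent.P223.H Vale.Agent.P223.X
open BoxB MetU MiniU

theorem specUL : Vale.Agent.P223.H66.SpecUL := by
  intro n M X Γ I _ _ _ _ c B C g hc hB hg hL i y₀
  obtain ⟨U, f, h, hU, hy, hf, hh, he⟩ := hL (B.a i) (B.x i y₀) (B.sub i y₀)
  have hx : ContDiff ℝ ∞ (B.x i) := contDiff_x B i
  refine ⟨B.x i ⁻¹' U, fun y => f (B.x i y), fun y => h (B.x i y), hU.preimage hx.continuous, hy,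
    hf.comp hx.contDiffOn fun y hy => hy, hh.comp hx.contDiffOn fun y hy => hy,
    fun y hy v w => ?_⟩
  have h1 : ∀ v, fderiv ℝ (fun y => f (B.x i y)) y v = fderiv ℝ f (B.x i y) (B.D i y v) := by
    intro v
    have hd : DifferentiableAt ℝ f (B.x i y) :=
      (hf.contDiffAt (hU.mem_nhds hy)).differentiableAt (by simp)
    have h2 := congrArg (fun T : E n →L[ℝ] E n => T v)
      (fderiv_comp y hd (hx.differentiable (by simp) y))
    simp only [ContinuousLinearMap.comp_apply, fderiv_x] at h2
    exact h2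
  simp only [h1]
  rw [← he _ hy, ← bil_G]
  unfold J.bil
  exact Finset.sum_congr rfl fun a _ => Finset.sum_congr rfl fun b _ => by ring

end Vale.Agent.P223.H850
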