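import Vale.Agent.P223.H850.SmoothX
import Vale.Agent.P223.X.IntM

/-! Smooth supersolutions. -/

namespace Vale.Agent.P223.H850

open scoped ContDiff Topology
open MeasureTheory Vale.Agent.P223.H Vale.Agent.P223.X

variable {n : ℕ} {M X Γ I : Type} [TopologicalSpace M] [TopologicalSpace X] [Group Γ]
    [MulAction Γ X] (C : Cov n M X Γ I) {G : I → E n → Matrix (Fin n) (Fin n) ℝ}

include C in
/-- an invariant positive continuous function has a positive lower bound -/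
theorem exists_lower [Finite I] {φ : X → ℝ} (hφ : Continuous φ)
    (hi : ∀ (γ : Γ) x, φ (γ • x) = φ x) (h0 : ∀ x, 0 < φ x) :
    ∃ m : ℝ, 0 < m ∧ ∀ x, m ≤ φ x := by
  have := IntM.compactSpace C
  rcases isEmpty_or_nonempty X with hX | ⟨⟨x₀⟩⟩
  · exact ⟨1, one_pos, fun x => (hX.false x).elim⟩
  have : Nonempty M := ⟨C.π x₀⟩
  obtain ⟨m₀, -, hm⟩ := isCompact_univ.exists_isMinOn Set.univ_nonempty
    (IntM.continuous_dn C hi hφ).continuousOn
  obtain ⟨x₁, rfl⟩ := C.surj m₀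
  refine ⟨φ x₁, h0 x₁, fun x => ?_⟩
  have h1 := hm (Set.mem_univ (C.π x))
  simp only [Set.mem_ofPred_eq, IntM.dn_eq C hi] at h1
  exact h1

include C in
/-- an invariant continuous function is bounded -/
theorem exists_bound [Finite I] {φ : X → ℝ} (hφ : Continuous φ)
    (hi : ∀ (γ : Γ) x, φ (γ • x) = φ x) : ∃ K : ℝ, 0 < K ∧ ∀ x, |φ x| ≤ K := by
  have := IntM.compactSpace C
  obtain ⟨K, hK⟩ := isCompact_univ.exists_bound_of_continuousOn
    (IntM.continuous_dn C hi hφ).continuousOn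
  refine ⟨max K 1, by positivity, fun x => ?_⟩
  have h1 := hK (C.π x) (Set.mem_univ _)
  rw [IntM.dn_eq C hi, Real.norm_eq_abs] at h1
  exact h1.trans (le_max_left _ _)

variable {C}

theorem exists_super (hG : MetX C G) [Fintype I] [T2Space X] {χ : I → E n → ℝ} (hχ : Part C χ)
    {c q : ℝ} (hc : 0 < c) (hq : 1 < q) {S φ : X → ℝ} {K : ℝ} (hK : 0 < K)
    (hS : ∀ x, |S x| ≤ K) (hφ : C.Ck 2 φ) (hi : ∀ (γ : Γ) x, φ (γ • x) = φ x)
    (h0 : ∀ x, 0 < φ x) (h : ∀ x, 0 ≤ -c * lapX C G φ x + S x * φ x + φ x ^ q)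
    {ε : ℝ} (hε : 0 < ε) : ∃ v : X → ℝ, Sm C v ∧ (∀ x, 0 < v x) ∧
      (∀ x, v x ≤ (1 + ε) * φ x) ∧ ∀ x, 0 ≤ -c * lapX C G v x + S x * v x + v x ^ q := by
  have hφc : Continuous φ := (Ck_zero_iff C).1 fun γ i => (hφ γ i).of_le (by simp)
  obtain ⟨m, hm, hmφ⟩ := exists_lower C hφc hi h0
  -- `ψ = (1 + ε / 2) φ`
  set e : ℝ := ε / 2 with he
  have he0 : 0 < e := by positivity
  have h1 : 1 + e < (1 + e) ^ q := by
    conv_lhs => rw [← Real.rpow_one (1 + e)]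
    exact Real.rpow_lt_rpow_of_exponent_lt (by linarith) hq
  -- `τ`
  obtain ⟨τ, hτ0, hτe, hτ⟩ : ∃ τ : ℝ, 0 < τ ∧ τ < e ∧ 1 + e + τ < (1 + e - τ) ^ q := by
    have hcont : ContinuousAt (fun τ : ℝ => (1 + e - τ) ^ q - (1 + e + τ)) 0 := by
      refine ContinuousAt.sub (ContinuousAt.rpow_const (by fun_prop) (Or.inl ?_)) (by fun_prop)
      simp; linarith
    have h2 : ∀ᶠ τ in 𝓝 (0 : ℝ), 0 < (1 + e - τ) ^ q - (1 + e + τ) := by
      refine hcont.eventually (lt_mem_nhds ?_)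
      simp only [sub_zero, add_zero]
      linarith
    have h3 : ∀ᶠ τ in 𝓝[>] (0 : ℝ), 0 < τ ∧ τ < e ∧ 0 < (1 + e - τ) ^ q - (1 + e + τ) := by
      filter_upwards [self_mem_nhdsWithin, nhdsWithin_le_nhds h2,
        nhdsWithin_le_nhds (gt_mem_nhds he0)] with τ h1 h2 h3 using ⟨h1, h3, h2⟩
    obtain ⟨τ, h4, h5, h6⟩ := h3.exists
    exact ⟨τ, h4, h5, by linarith⟩
  set δ : ℝ := min (τ * m) (τ * m ^ q / (c + K)) with hδ
  have hcK : 0 < c + K := by positivity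
  have hmq : 0 < m ^ q := Real.rpow_pos_of_pos hm q
  have hδ0 : 0 < δ := lt_min (by positivity) (by positivity)
  have hδ1 : δ ≤ τ * m := min_le_left _ _
  have hδ2 : (c + K) * δ ≤ τ * m ^ q := by
    have := min_le_right (τ * m) (τ * m ^ q / (c + K))
    rw [← hδ, le_div_iff₀ hcK] at this
    linarith
  obtain ⟨v, hv, hv1, hv2⟩ := exists_smooth hG hχ (u := fun x => (1 + e) * φ x)
    (fun γ i => contDiff_const.mul (hφ γ i)) (fun γ x => by simp only [hi]) hδ0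
  have hL : ∀ x, lapX C G (fun x => (1 + e) * φ x) x = (1 + e) * lapX C G φ x := fun x =>
    lapX_mul hG (1 + e) hφ x
  have hlow : ∀ x, (1 + e - τ) * φ x ≤ v x := fun x => by
    have h2 := (abs_le.1 (hv1 x)).1
    have h3 : τ * m ≤ τ * φ x := mul_le_mul_of_nonneg_left (hmφ x) hτ0.le
    linarith
  have hup : ∀ x, v x ≤ (1 + ε) * φ x := fun x => by
    have h2 := (abs_le.1 (hv1 x)).2
    have h3 : τ * m ≤ τ * φ x := mul_le_mul_of_nonneg_left (hmφ x) hτ0.le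
    have h4 : τ * φ x ≤ e * φ x := mul_le_mul_of_nonneg_right hτe.le (h0 x).le
    have h5 : (1 + ε) * φ x = (1 + e) * φ x + e * φ x := by rw [he]; ring
    linarith
  have hpos : ∀ x, 0 < v x := fun x =>
    lt_of_lt_of_le (mul_pos (by linarith) (h0 x)) (hlow x)
  refine ⟨v, hv, hpos, hup, fun x => ?_⟩
  have hφq : m ^ q ≤ φ x ^ q := Real.rpow_le_rpow hm.le (hmφ x) (by linarith)
  have h2 : (1 + e + τ) * φ x ^ q ≤ v x ^ q := by
    calc (1 + e + τ) * φ x ^ q ≤ (1 + e - τ) ^ q * φ x ^ q :=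
          mul_le_mul_of_nonneg_right hτ.le (Real.rpow_pos_of_pos (h0 x) q).le
      _ = ((1 + e - τ) * φ x) ^ q := by
          rw [Real.mul_rpow (by linarith) (h0 x).le]
      _ ≤ v x ^ q := Real.rpow_le_rpow (mul_pos (by linarith) (h0 x)).le (hlow x) (by linarith)
  have h3 : (1 + e) * (-c * lapX C G φ x + S x * φ x) - (c + K) * δ ≤
      -c * lapX C G v x + S x * v x := by
    have h4 := hv2 x
    rw [hL] at h4
    have h5 : c * lapX C G v x ≤ c * ((1 + e) * lapX C G φ x + δ) :=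
      mul_le_mul_of_nonneg_left (by linarith [(abs_le.1 h4).2]) hc.le
    have h6 : |S x * (v x - (1 + e) * φ x)| ≤ K * δ := by
      rw [abs_mul]
      exact mul_le_mul (hS x) (hv1 x) (abs_nonneg _) hK.le
    have h7 := (abs_le.1 h6).1
    nlinarith
  have h4 := h x
  have h5 : (1 + e) * (-c * lapX C G φ x + S x * φ x) ≥ -((1 + e) * φ x ^ q) := by
    nlinarith
  have h6 : τ * m ^ q ≤ τ * φ x ^ q := mul_le_mul_of_nonneg_left hφq hτ0.le
  nlinarith

end Vale.Agent.P223.H850
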