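import Vale.Agent.P223.H850.CfA
import Vale.Agent.P223.H850.CfB
import Vale.Agent.P223.H66.S2
import Vale.Agent.P223.X.AllU
import Vale.Agent.P223.X.Vol
import Vale.Agent.P223.X.PartX

/-! Conformal metrics with `Scal ≥ -1` and small volume, from supersolutions. -/

namespace Vale.Agent.P223.H850

open scoped ContDiff Topology ENNReal
open MeasureTheory Vale.Agent.P223.H Vale.Agent.P223.X
open BoxB MetU MiniU

/-- supersolutions of the Yamabe type equation -/
def SpecIter : Prop := ∀ (n : ℕ) (M X Γ I : Type) [TopologicalSpace M] [TopologicalSpace X]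
  [Group Γ] [MulAction Γ X] [Fintype I] [T2Space X] [ConnectedSpace X] [T2Space M]
  [MeasurableSpace M] [BorelSpace M] (C : Cov n M X Γ I)
  (G : I → E n → Matrix (Fin n) (Fin n) ℝ) (ν : Measure M) (δ : ℝ), 3 ≤ n → MetX C G →
  VolM C G ν → 0 < δ → ∃ φ : X → ℝ, C.Ck 2 φ ∧ (∀ (γ : Γ) x, φ (γ • x) = φ x) ∧
    (∀ x, 0 < φ x) ∧
    (∀ x, 0 ≤ -(4 * ((n : ℝ) - 1) / (n - 2)) * lapX C G φ x + scM C G (C.π x) * φ x +
      φ x ^ (((n : ℝ) + 2) / (n - 2))) ∧
    ∫ m, C.dn φ m ^ (2 * (n : ℝ) / (n - 2)) ∂ν ≤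
      ∫ m, max 0 (-scM C G m) ^ ((n : ℝ) / 2) ∂ν + δ

section
variable {n : ℕ} {M X Γ I : Type} [TopologicalSpace M] [TopologicalSpace X] [Group Γ]
    [MulAction Γ X] {c : M → J.Ch n M} {B : Box c I} {C : Cov n M X Γ I}

theorem sm_dn (hβ : ∀ i y, C.π (C.ψ i y) = B.β i y) (hc : J.Atl c) {F : X → ℝ}
    (hF : C.Ck ∞ F) (hi : ∀ (γ : Γ) x, F (γ • x) = F x) : J.Sm c (C.dn F) := by
  intro a x hx
  refine ContDiffAt.contDiffWithinAt ?_
  set p : M := (c a).symm x with hp
  have hps : p ∈ (c a).source := (c a).map_target hx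
  have hcx : c a p = x := (c a).right_inv hx
  set i := ix B p with hi'
  have hpi : p ∈ Set.range (B.β i) := ix_spec B p
  have d1 := contDiffAt_kp B hc hps hpi
  rw [hcx] at d1
  have d2 : ContDiffAt ℝ ∞ (fun x => C.rep F 1 i (kp B a i x)) x :=
    ((hF 1 i).contDiffAt).comp x d1
  refine d2.congr_of_eventuallyEq ?_
  have h3 := eventually_mem hps (isOpen_range_β B i) hpi
  rw [hcx] at h3
  filter_upwards [h3] with x' hx'
  have h4 : (c a).symm x' ∈ (c a).source := (c a).map_target hx'.1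
  have h5 : kp B a i x' = βi B i ((c a).symm x') := by
    have := kp_apply B i h4
    rwa [(c a).right_inv hx'.1] at this
  rw [h5]
  conv_lhs => rw [← β_βi B hx'.2, ← hβ, IntM.dn_eq C hi]
  show _ = F ((1 : Γ) • C.ψ i _)
  rw [one_smul]

theorem met_unique {g g' : M → J.Mtx n} (hg : J.Met c g) (hg' : J.Met c g')
    (h : B.G g = B.G g') (a : M) {x : E n} (hx : x ∈ (c a).target) : g a x = g' a x := by
  set p : M := (c a).symm x with hp
  have hps : p ∈ (c a).source := (c a).map_target hx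
  have hcx : c a p = x := (c a).right_inv hx
  obtain ⟨y, hy⟩ := ix_spec B p
  set i := ix B p with hi'
  have h0 : p ∈ (c (B.a i)).source := by rw [← hy]; exact β_mem B i y
  have h1 : g (B.a i) (c (B.a i) p) = g' (B.a i) (c (B.a i) p) := by
    rw [← hy, c_β]
    ext k l
    have h2 := congrFun (congrFun (congrFun (congrFun h i) y) k) l
    unfold Box.G at h2
    have h3 : ∀ k, 0 < dth (B.r i) (y k) := fun k => dth_pos (B.pos i) _
    exact mul_left_cancel₀ (mul_pos (h3 k) (h3 l)).ne' h2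
  have h4 : ∀ v w, J.bil (g a x) v w = J.bil (g' a x) v w := by
    intro v w
    have h5 := (hg a p hps).2.2 (B.a i) h0 v w
    have h6 := (hg' a p hps).2.2 (B.a i) h0 v w
    rw [hcx] at h5 h6
    rw [h5, h6, h1]
  ext k l
  have h5 := (bil_single (g a x) k l 1 1).symm.trans ((h4 _ _).trans (bil_single (g' a x) k l 1 1))
  linarith

end

theorem exists_eps {A B p : ℝ} (h : A < B) : ∃ ε : ℝ, 0 < ε ∧ (1 + ε) ^ p * A ≤ B := by
  have hcont : ContinuousAt (fun ε : ℝ => (1 + ε) ^ p * A) 0 :=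
    ContinuousAt.mul (ContinuousAt.rpow_const (by fun_prop) (Or.inl (by norm_num)))
      continuousAt_const
  have h1 : ∀ᶠ ε in 𝓝 (0 : ℝ), (1 + ε) ^ p * A < B := by
    refine hcont.eventually (gt_mem_nhds ?_)
    simpa using h
  have h2 : ∀ᶠ ε in 𝓝[>] (0 : ℝ), 0 < ε ∧ (1 + ε) ^ p * A < B := by
    filter_upwards [self_mem_nhdsWithin, nhdsWithin_le_nhds h1] with ε h1 h2 using ⟨h1, h2⟩
  obtain ⟨ε, h3, h4⟩ := h2.exists
  exact ⟨ε, h3, h4.le⟩

theorem specCf (hIt : SpecIter) : Vale.Agent.P223.H66.SpecCf := by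
  intro n M _ _ _ _ _ _ c g μ δ hn hc hg hμ hδ
  obtain ⟨d⟩ := FinalM.exists_data hu (by omega) c hc
  let _ : MeasurableSpace d.X := borel d.X
  have _ : BorelSpace d.X := ⟨rfl⟩
  have hn' : (3 : ℝ) ≤ n := by exact_mod_cast hn
  have hn2 : (0 : ℝ) < n - 2 := by linarith
  have hM := hu.met n M d.X d.Γ d.I c d.B d.C hc d.hCB
  have hG : MetX d.C (d.B.G g) := hM.1 g hg
  have hV : VolM d.C (d.B.G g) μ := hu.vol n M d.X d.Γ d.I c d.B d.C g μ hc d.hCB hg hμ
  obtain ⟨χ, hχ⟩ := PartX.main n M d.X d.Γ d.I d.C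
  have hfin := IntM.isFiniteMeasure hG hV
  set C := d.C with hC
  set G := d.B.G g with hGdef
  set q : ℝ := ((n : ℝ) + 2) / (n - 2) with hq
  set p : ℝ := 2 * (n : ℝ) / (n - 2) with hp
  set cn : ℝ := 4 * ((n : ℝ) - 1) / (n - 2) with hcn
  have hp0 : 0 < p := by positivity
  have hq1 : 1 < q := by rw [hq, lt_div_iff₀ hn2]; linarith
  have hcn0 : 0 < cn := by rw [hcn]; apply div_pos _ hn2; linarith
  -- a real number below `δ`
  obtain ⟨δ', hδ'0, hδ'⟩ : ∃ δ' : ℝ, 0 < δ' ∧ ENNReal.ofReal δ' ≤ δ := by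
    refine ⟨(min δ 1).toReal, ENNReal.toReal_pos (lt_min hδ one_pos).ne' ?_, ?_⟩
    · exact ne_top_of_le_ne_top ENNReal.one_ne_top (min_le_right _ _)
    · rw [ENNReal.ofReal_toReal (ne_top_of_le_ne_top ENNReal.one_ne_top (min_le_right _ _))]
      exact min_le_left _ _
  obtain ⟨φ, hφ, hφi, hφ0, hsup, hvol⟩ := hIt n M d.X d.Γ d.I C G μ (δ' / 2) hn hG hV (by positivity)
  set I₀ : ℝ := ∫ m, max 0 (-scM C G m) ^ ((n : ℝ) / 2) ∂μ with hI₀
  obtain ⟨ε, hε0, hε⟩ := exists_eps (p := p) (show I₀ + δ' / 2 < I₀ + δ' by linarith)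
  have hScont : Continuous fun x => scM C G (C.π x) :=
    (ConfX.continuous_scM hG).comp C.π.continuous
  have hSinv : ∀ (γ : d.Γ) x, scM C G (C.π (γ • x)) = scM C G (C.π x) := fun γ x => by
    rw [MetU.π_smul]
  obtain ⟨K, hK0, hK⟩ := exists_bound C hScont hSinv
  obtain ⟨v, hv, hv0, hvup, hvsup⟩ := exists_super hG hχ hcn0 hq1 hK0 hK hφ hφi hφ0 hsup hε0
  -- the conformal factor
  set F : d.X → ℝ := fun x => 2 / ((n : ℝ) - 2) * Real.log (v x) with hF
  have hFck : C.Ck ∞ F := fun γ i => contDiff_const.mul ((hv.ck γ i).log fun y => (hv0 _).ne')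
  have hFi : ∀ (γ : d.Γ) x, F (γ • x) = F x := fun γ x => by rw [hF]; simp only [hv.inv]
  set f : M → ℝ := C.dn F with hf
  have hfS : J.Sm c f := sm_dn d.hCB hc hFck hFi
  have hfπ : (fun x => f (C.π x)) = F := funext fun x => IntM.dn_eq C hFi x
  obtain ⟨hc1, -, hc3⟩ := hu.conf n M d.X d.Γ d.I c d.B d.C g f hc d.hCB hg hfS
  rw [hfπ] at hc3
  set G' : d.I → E n → Matrix (Fin n) (Fin n) ℝ := fun i => confm (C.rep F 1 i) (G i) with hG'
  have hG'm : MetX C G' := ConfX.confm_met hG hFck hFi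
  obtain ⟨-, -, ⟨μ', hV'⟩, -, -⟩ := Vol.main n M d.X d.Γ d.I C G' hG'm
  obtain ⟨g₁, hg1, hg2, hg3⟩ := MiniU.main n M d.X d.Γ d.I c d.B C G' μ' hc d.hCB hG'm hV'
  refine ⟨f, μ', hfS, ?_, ?_, ?_⟩
  · -- volume measure
    intro a S hS hSm
    rw [hg3 a S hS hSm]
    refine setLIntegral_congr_fun hSm fun x hx => ?_
    rw [met_unique (B := d.B) hg1 hc1 (hg2.trans hc3.symm) a (hS hx)]
  · -- scalar curvature
    intro m
    rw [← FinalM.scM_eq hu hc d hc1 m, hc3]
    obtain ⟨i, y, rfl⟩ := ConfX.exists_β C m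
    rw [ConfX.scM_β hG'm]
    have h1 := scal_ge hn (hG.smooth i) (hG.pos i) (v := C.rep v 1 i) (hv.ck 1 i)
      (fun y => hv0 _) y
    refine h1 ?_
    have h2 := hvsup (C.ψ i y)
    have h3 : lapX C G v (C.ψ i y) = lap (G i) (C.rep v 1 i) y := by
      have := lapX_eq hG hv.c2 1 i y
      rwa [one_smul] at this
    have h4 : C.rep v 1 i y = v (C.ψ i y) := by
      show v ((1 : d.Γ) • C.ψ i y) = _
      rw [one_smul]
    have h5 : scM C G (C.π (C.ψ i y)) = H.scal (G i) y := ConfX.scM_β hG i y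
    rw [h3, h5] at h2
    rw [h4]
    exact h2
  · -- volume
    have hcomp := IntM.compactSpace C
    have hci : ∀ g : M → ℝ, Continuous g → Integrable g μ := fun g hgc => by
      have := hgc.continuousOn.integrableOn_compact (μ := μ) isCompact_univ
      rwa [integrableOn_univ] at this
    have hvc : Continuous (C.dn v) := IntM.continuous_dn C hv.inv hv.cont
    have hφc : Continuous φ := (Ck_zero_iff C).1 fun γ i => (hφ γ i).of_le (by simp)
    have hφdc : Continuous (C.dn φ) := IntM.continuous_dn C hφi hφc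
    have hv0' : ∀ m, 0 < C.dn v m := fun m => hv0 _
    have hφ0' : ∀ m, 0 < C.dn φ m := fun m => hφ0 _
    have hvp : Continuous fun m => C.dn v m ^ p := hvc.rpow_const fun m => Or.inr hp0.le
    have hφp : Continuous fun m => C.dn φ m ^ p := hφdc.rpow_const fun m => Or.inr hp0.le
    have hscc : Continuous (scM C G) := ConfX.continuous_scM hG
    have hscp : Continuous fun m => max 0 (-scM C G m) ^ ((n : ℝ) / 2) :=
      (continuous_const.max hscc.neg).rpow_const fun m => Or.inr (by positivity)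
    have h1 : μ' Set.univ = ∫⁻ m, ENNReal.ofReal (C.dn v m ^ p) ∂μ := by
      have h2 := IntM.lintegral_eq hG'm hV' hχ (F := fun _ => 1) measurable_const
      rw [lintegral_one] at h2
      rw [h2, IntM.lintegral_eq hG hV hχ hvp.measurable.ennreal_ofReal]
      refine Finset.sum_congr rfl fun i _ => lintegral_congr fun y => ?_
      have h6 : H.dens (G' i) y = Real.exp (n * C.rep F 1 i y) * H.dens (G i) y :=
        Conf.confm_dens (C.rep F 1 i) (G i) y
      have h7 : C.rep F 1 i y = 2 / ((n : ℝ) - 2) * Real.log (v (C.ψ i y)) := by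
        show F ((1 : d.Γ) • C.ψ i y) = _
        rw [one_smul]
      have h8 : C.dn v (IntM.β C i y) = v (C.ψ i y) := IntM.dn_β C hv.inv i y
      have h9 : Real.exp (n * C.rep F 1 i y) = v (C.ψ i y) ^ p := by
        rw [h7, Real.rpow_def_of_pos (hv0 _)]
        congr 1
        rw [hp]
        ring
      rw [h6, h9, h8, mul_one, mul_assoc, ENNReal.ofReal_mul (Real.rpow_nonneg (hv0 _).le p)]
    have h2 : ∫ m, C.dn v m ^ p ∂μ ≤ I₀ + δ' := by
      calc ∫ m, C.dn v m ^ p ∂μ ≤ ∫ m, (1 + ε) ^ p * C.dn φ m ^ p ∂μ := by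
            refine integral_mono (hci _ hvp) ((hci _ hφp).const_mul _) fun m => ?_
            simp only
            rw [← Real.mul_rpow (by positivity) (hφ0' m).le]
            exact Real.rpow_le_rpow (hv0' m).le (hvup _) hp0.le
        _ = (1 + ε) ^ p * ∫ m, C.dn φ m ^ p ∂μ := integral_const_mul _ _
        _ ≤ (1 + ε) ^ p * (I₀ + δ' / 2) := mul_le_mul_of_nonneg_left hvol (by positivity)
        _ ≤ I₀ + δ' := hε
    have h3 : J.L n μ (J.sn c g) = ENNReal.ofReal I₀ := by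
      rw [← FinalM.IS_eq hu hc d hg μ]
      unfold IS
      rw [hI₀, ofReal_integral_eq_lintegral_ofReal (hci _ hscp)
        (ae_of_all _ fun m => Real.rpow_nonneg (le_max_left _ _) _)]
    have hI₀0 : 0 ≤ I₀ := integral_nonneg fun m => Real.rpow_nonneg (le_max_left _ _) _
    rw [h1, ← ofReal_integral_eq_lintegral_ofReal (hci _ hvp)
      (ae_of_all _ fun m => Real.rpow_nonneg (hv0' m).le _), h3]
    calc ENNReal.ofReal (∫ m, C.dn v m ^ p ∂μ) ≤ ENNReal.ofReal (I₀ + δ') :=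
          ENNReal.ofReal_le_ofReal h2
      _ = ENNReal.ofReal I₀ + ENNReal.ofReal δ' := ENNReal.ofReal_add hI₀0 hδ'0.le
      _ ≤ _ := by gcongr

end Vale.Agent.P223.H850
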