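import Vale.Agent.P223.X.PartX
import Vale.Agent.P223.X.GrdX
import Vale.Agent.P223.H.B25c

/-! Local bump functions which are subharmonic off a small ball. -/

namespace Vale.Agent.P223.H850

open scoped ContDiff Topology Polynomial
open MeasureTheory Vale.Agent.P223.H Vale.Agent.P223.X

variable {n : ℕ}

/-- squared Euclidean distance -/
noncomputable def rh (c y : E n) : ℝ := ∑ k, (y k - c k) ^ 2

theorem rh_cd (c : E n) : ContDiff ℝ ∞ (rh c) := by
  unfold rh
  exact ContDiff.sum fun k _ => ((contDiff_apply ℝ ℝ k).sub contDiff_const).pow 2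

theorem rh_nonneg (c y : E n) : 0 ≤ rh c y := Finset.sum_nonneg fun _ _ => sq_nonneg _

theorem rh_self (c : E n) : rh c c = 0 := by simp [rh]

theorem le_rh (c y : E n) (k : Fin n) : (y k - c k) ^ 2 ≤ rh c y :=
  Finset.single_le_sum (f := fun k => (y k - c k) ^ 2) (fun _ _ => sq_nonneg _) (Finset.mem_univ k)

theorem rh_eq_zero {c y : E n} (h : rh c y = 0) : y = c := by
  funext k
  have h1 := le_rh c y k
  rw [h] at h1
  have h2 : (y k - c k) ^ 2 = 0 := le_antisymm h1 (sq_nonneg _)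
  have h3 := pow_eq_zero_iff (two_ne_zero) |>.1 h2
  linarith

theorem rh_comm (c y : E n) : rh c y = rh y c := by
  unfold rh; exact Finset.sum_congr rfl fun k _ => by ring

theorem isCompact_rh (c : E n) (R : ℝ) : IsCompact {y : E n | rh c y ≤ R} := by
  have hcl : IsClosed {y : E n | rh c y ≤ R} := isClosed_le (rh_cd c).continuous continuous_const
  refine (isCompact_closedBall c (|R| + 1)).of_isClosed_subset hcl fun y hy => ?_
  rw [Metric.mem_closedBall, dist_pi_le_iff (by positivity)]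
  intro k
  rw [Real.dist_eq]
  have h1 := le_rh c y k
  have h2 : rh c y ≤ R := hy
  have h3 := le_abs_self R
  refine abs_le_of_sq_le_sq ?_ (by positivity)
  nlinarith [abs_nonneg R]

theorem pd_rh (c y : E n) (k : Fin n) : H.pd k (rh c) y = 2 * (y k - c k) := by
  have h1 : ∀ j, HasFDerivAt (fun z : E n => (z j - c j) ^ 2)
      ((2 * (y j - c j)) • (ContinuousLinearMap.proj (R := ℝ) (φ := fun _ : Fin n => ℝ) j)) y := by
    intro j
    have h0 : HasFDerivAt (fun z : E n => z j - c j)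
        (ContinuousLinearMap.proj (R := ℝ) (φ := fun _ : Fin n => ℝ) j) y :=
      ((ContinuousLinearMap.proj (R := ℝ) (φ := fun _ : Fin n => ℝ) j).hasFDerivAt).sub_const _
    have h2 := h0.pow 2
    simpa using h2
  have h3 : HasFDerivAt (rh c) (∑ j, (2 * (y j - c j)) •
      (ContinuousLinearMap.proj (R := ℝ) (φ := fun _ : Fin n => ℝ) j)) y := by
    unfold rh
    exact HasFDerivAt.fun_sum fun j _ => h1 j
  unfold H.pd
  rw [h3.fderiv]
  simp [Pi.single_apply]

variable {G : E n → Matrix (Fin n) (Fin n) ℝ}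

theorem gradSq_rh_pos (hp : ∀ y, (G y).PosDef) {c y : E n} (h : 0 < rh c y) :
    0 < gradSq G (rh c) y := by
  refine lt_of_le_of_ne (Grad.gradSq_nonneg' (hp y) _) fun h0 => ?_
  have h1 : ∀ k, y k - c k = 0 := by
    intro k
    have h2 := Grad.pd_sq_le (hp y) (rh c) k
    rw [← h0, mul_zero, pd_rh] at h2
    have h3 : (2 * (y k - c k)) ^ 2 = 0 := le_antisymm h2 (sq_nonneg _)
    have := pow_eq_zero_iff (two_ne_zero) |>.1 h3
    linarith
  have : rh c y = 0 := by
    unfold rh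
    exact Finset.sum_eq_zero fun k _ => by rw [h1 k]; ring
  linarith

theorem eng_d1 (s : ℝ) : HasDerivAt expNegInvGlue (s⁻¹ ^ 2 * expNegInvGlue s) s := by
  have := expNegInvGlue.hasDerivAt_polynomial_eval_inv_mul 1 s
  simpa using this

theorem eng_d2 (s : ℝ) : HasDerivAt (fun s => s⁻¹ ^ 2 * expNegInvGlue s)
    ((s⁻¹ ^ 4 - 2 * s⁻¹ ^ 3) * expNegInvGlue s) s := by
  have := expNegInvGlue.hasDerivAt_polynomial_eval_inv_mul (Polynomial.X ^ 2) s
  simp only [Polynomial.eval_pow, Polynomial.eval_X, Polynomial.eval_mul, Polynomial.eval_sub,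
    Polynomial.derivative_X_pow, Polynomial.eval_C] at this
  convert this using 1
  push_cast
  ring

/-- the bump function -/
theorem bump (hs : ∀ i j, ContDiff ℝ ∞ (fun x => G x i j)) (hp : ∀ y, (G y).PosDef) (c : E n)
    {r R : ℝ} (hr : 0 < r) (hrR : r < R) : ∃ h : E n → ℝ, ContDiff ℝ ∞ h ∧
    (∀ y, R ≤ rh c y → h y = 0) ∧ (∀ y, r ≤ rh c y → 0 ≤ lap G h y) ∧
    (∀ y, r ≤ rh c y → rh c y < R → 0 < lap G h y) := by
  have hc2 : ContDiff ℝ 2 (rh c) := contDiff_infty.1 (rh_cd c) 2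
  -- bounds on the annulus
  have hK : IsCompact {y : E n | r ≤ rh c y ∧ rh c y ≤ R} :=
    (isCompact_rh c R).of_isClosed_subset ((isClosed_le continuous_const
      (rh_cd c).continuous).inter (isClosed_le (rh_cd c).continuous continuous_const))
      fun y hy => hy.2
  obtain ⟨m, hm0, hm⟩ : ∃ m : ℝ, 0 < m ∧ ∀ y, r ≤ rh c y → rh c y ≤ R →
      m ≤ gradSq G (rh c) y := by
    rcases Set.eq_empty_or_nonempty {y : E n | r ≤ rh c y ∧ rh c y ≤ R} with he | hne
    · exact ⟨1, one_pos, fun y h1 h2 => absurd (show y ∈ (∅ : Set (E n)) from he ▸ ⟨h1, h2⟩)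
        (Set.notMem_empty y)⟩
    · obtain ⟨z, hz, hz'⟩ := hK.exists_isMinOn hne
        (X.GrdX.continuous_gradSq hs hp (contDiff_infty.1 (rh_cd c) 1)).continuousOn
      exact ⟨_, gradSq_rh_pos hp (lt_of_lt_of_le hr hz.1), fun y h1 h2 => hz' ⟨h1, h2⟩⟩
  obtain ⟨L, hL⟩ := (hK.image (X.GrdX.continuous_lap hs hp hc2)).bddAbove
  have hL' : ∀ y, r ≤ rh c y → rh c y ≤ R → lap G (rh c) y ≤ |L| := fun y h1 h2 =>
    (hL ⟨y, ⟨h1, h2⟩, rfl⟩).trans (le_abs_self L)
  have hR : 0 < R := hr.trans hrR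
  set a : ℝ := 2 * R + |L| * R ^ 2 / m + 1 with ha
  have ha0 : 0 < a := by positivity
  -- the function
  have hv : ∀ s : ℝ, HasDerivAt (fun s => (R - s) / a) (-(1 / a)) s := fun s => by
    have := ((hasDerivAt_const s R).sub (hasDerivAt_id s)).div_const a
    simpa [neg_div] using this
  have h1 : ∀ s : ℝ, HasDerivAt (fun s => expNegInvGlue ((R - s) / a))
      (-(1 / a) * (((R - s) / a)⁻¹ ^ 2 * expNegInvGlue ((R - s) / a))) s := fun s => by
    have := (eng_d1 ((R - s) / a)).comp s (hv s)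
    rw [mul_comm] at this
    exact this
  have h2 : ∀ s : ℝ, HasDerivAt
      (fun s => -(1 / a) * (((R - s) / a)⁻¹ ^ 2 * expNegInvGlue ((R - s) / a)))
      (-(1 / a) * (-(1 / a) * ((((R - s) / a)⁻¹ ^ 4 - 2 * ((R - s) / a)⁻¹ ^ 3) *
        expNegInvGlue ((R - s) / a)))) s := fun s => by
    have := ((eng_d2 ((R - s) / a)).comp s (hv s)).const_mul (-(1 / a))
    rw [mul_comm (_ * expNegInvGlue _)] at this
    exact this
  have key : ∀ y, lap G (fun y => expNegInvGlue ((R - rh c y) / a)) y =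
      -(1 / a) * (((R - rh c y) / a)⁻¹ ^ 2 * expNegInvGlue ((R - rh c y) / a)) * lap G (rh c) y +
      -(1 / a) * (-(1 / a) * ((((R - rh c y) / a)⁻¹ ^ 4 - 2 * ((R - rh c y) / a)⁻¹ ^ 3) *
        expNegInvGlue ((R - rh c y) / a))) * gradSq G (rh c) y := fun y =>
    B25c.lap_comp hc2 h1 h2 y
  have hzero : ∀ y, R ≤ rh c y → expNegInvGlue ((R - rh c y) / a) = 0 := fun y hy =>
    expNegInvGlue.zero_of_nonpos (div_nonpos_of_nonpos_of_nonneg (by linarith) ha0.le)
  have hpos : ∀ y, r ≤ rh c y → rh c y < R →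
      0 < lap G (fun y => expNegInvGlue ((R - rh c y) / a)) y := by
    intro y hy1 hy2
    rw [key]
    set E := expNegInvGlue ((R - rh c y) / a) with hE
    set v := R - rh c y with hvd
    have hv0 : 0 < v := by rw [hvd]; linarith
    have hvR : v ≤ R := by rw [hvd]; linarith [rh_nonneg c y]
    have hE0 : 0 < E := expNegInvGlue.pos_of_pos (div_pos hv0 ha0)
    have hm1 := hm y hy1 hy2.le
    have hL1 := hL' y hy1 hy2.le
    set g := gradSq G (rh c) y
    set l := lap G (rh c) y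
    have e : -(1 / a) * ((v / a)⁻¹ ^ 2 * E) * l +
        -(1 / a) * (-(1 / a) * (((v / a)⁻¹ ^ 4 - 2 * (v / a)⁻¹ ^ 3) * E)) * g =
        E * (a / v ^ 4) * ((a - 2 * v) * g - v ^ 2 * l) := by
      field_simp
      ring
    rw [e]
    have h3 : |L| * R ^ 2 < (a - 2 * v) * m := by
      have : |L| * R ^ 2 + m ≤ (a - 2 * v) * m := by
        have h4 : a - 2 * v ≥ |L| * R ^ 2 / m + 1 := by rw [ha]; linarith
        calc |L| * R ^ 2 + m = (|L| * R ^ 2 / m + 1) * m := by field_simp
          _ ≤ _ := by gcongr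
      linarith
    have h4 : v ^ 2 * l ≤ |L| * R ^ 2 := by
      have h5 : v ^ 2 * l ≤ v ^ 2 * |L| := by gcongr
      have h6 : v ^ 2 * |L| ≤ R ^ 2 * |L| := by gcongr
      linarith
    have h5 : (a - 2 * v) * m ≤ (a - 2 * v) * g := by
      have : 0 ≤ a - 2 * v := by
        have : 0 ≤ |L| * R ^ 2 / m := by positivity
        rw [ha]; linarith
      gcongr
    have h6 : 0 < (a - 2 * v) * g - v ^ 2 * l := by linarith
    positivity
  refine ⟨fun y => expNegInvGlue ((R - rh c y) / a), ?_, hzero, ?_, hpos⟩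
  · exact expNegInvGlue.contDiff.comp ((contDiff_const.sub (rh_cd c)).div_const _)
  · intro y hy
    rcases lt_or_ge (rh c y) R with h | h
    · exact (hpos y hy h).le
    · rw [key, hzero y h]
      simp

end Vale.Agent.P223.H850
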