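import Vale.Agent.P223.X.ConfX
import Vale.Agent.P223.H.B25c

/-! The scalar curvature of `v^(4/(n-2)) g`. -/

namespace Vale.Agent.P223.H850

open scoped ContDiff
open Vale.Agent.P223.H

variable {n : ℕ}

theorem conf_exp (hn : 3 ≤ n) {G : E n → Matrix (Fin n) (Fin n) ℝ}
    (hs : ∀ i j, ContDiff ℝ ∞ (fun x => G x i j)) (hp : ∀ x, (G x).PosDef) {f : E n → ℝ}
    (hf : ContDiff ℝ ∞ f) (x : E n) :
    Real.exp (2 * f x) * Vale.Agent.P223.H.scal (confm f G) x *
        Real.exp (((n : ℝ) - 2) / 2 * f x) =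
      Vale.Agent.P223.H.scal G x * Real.exp (((n : ℝ) - 2) / 2 * f x) -
        4 * ((n : ℝ) - 1) / (n - 2) * lap G (fun y => Real.exp (((n : ℝ) - 2) / 2 * f y)) x := by
  have hn' : (3 : ℝ) ≤ n := by exact_mod_cast hn
  set a : ℝ := ((n : ℝ) - 2) / 2 with ha
  have ha0 : 0 < a := by rw [ha]; linarith
  have h1 : ∀ s : ℝ, HasDerivAt (fun s => Real.exp (a * s)) (a * Real.exp (a * s)) s := fun s => by
    have := ((hasDerivAt_id s).const_mul a).exp
    simp only [id, mul_one] at this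
    rwa [mul_comm (Real.exp _)] at this
  have h2 : ∀ s : ℝ, HasDerivAt (fun s => a * Real.exp (a * s)) (a * (a * Real.exp (a * s))) s :=
    fun s => (h1 s).const_mul a
  have h3 := B25c.lap_comp (G := G) (contDiff_infty.1 hf 2) h1 h2 x
  rw [h3, ConfScal.main n G hs hp f hf x]
  have h4 : ((n : ℝ) - 2) ≠ 0 := by linarith
  have h5 : (n : ℝ) - 2 = 2 * a := by rw [ha]; ring
  rw [h5]
  have h6 : 2 * a ≠ 0 := by positivity
  field_simp
  ring

/-- the lower bound `-1` for the scalar curvature -/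
theorem scal_ge (hn : 3 ≤ n) {G : E n → Matrix (Fin n) (Fin n) ℝ}
    (hs : ∀ i j, ContDiff ℝ ∞ (fun x => G x i j)) (hp : ∀ x, (G x).PosDef) {v : E n → ℝ}
    (hv : ContDiff ℝ ∞ v) (hv0 : ∀ y, 0 < v y) (x : E n)
    (h : 0 ≤ -(4 * ((n : ℝ) - 1) / (n - 2)) * lap G v x + Vale.Agent.P223.H.scal G x * v x +
      v x ^ (((n : ℝ) + 2) / (n - 2))) :
    -1 ≤ Vale.Agent.P223.H.scal (confm (fun y => 2 / ((n : ℝ) - 2) * Real.log (v y)) G) x := by
  have hn' : (3 : ℝ) ≤ n := by exact_mod_cast hn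
  have h4 : ((n : ℝ) - 2) ≠ 0 := by linarith
  set f : E n → ℝ := fun y => 2 / ((n : ℝ) - 2) * Real.log (v y) with hf
  have hfc : ContDiff ℝ ∞ f := contDiff_const.mul (hv.log fun y => (hv0 y).ne')
  have e1 : ∀ y, Real.exp (((n : ℝ) - 2) / 2 * f y) = v y := fun y => by
    rw [hf]
    have : ((n : ℝ) - 2) / 2 * (2 / ((n : ℝ) - 2) * Real.log (v y)) = Real.log (v y) := by
      field_simp
    simp only [this, Real.exp_log (hv0 y)]
  have e2 : v x ^ (((n : ℝ) + 2) / (n - 2)) = Real.exp (2 * f x) * v x := by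
    rw [hf]
    simp only
    rw [Real.rpow_def_of_pos (hv0 x)]
    conv_rhs => rw [← Real.exp_log (hv0 x)]
    rw [← Real.exp_add, Real.log_exp]
    congr 1
    field_simp
    ring
  have h1 := conf_exp hn hs hp hfc x
  simp only [e1] at h1
  rw [e2] at h
  have h5 : 0 < Real.exp (2 * f x) * v x := mul_pos (Real.exp_pos _) (hv0 x)
  by_contra hcon
  push Not at hcon
  have h6 : Real.exp (2 * f x) * v x * Vale.Agent.P223.H.scal (confm f G) x <
      Real.exp (2 * f x) * v x * (-1) := mul_lt_mul_of_pos_left hcon h5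
  nlinarith

end Vale.Agent.P223.H850
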