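import Vale.Agent.P223.H850.Sqrt
import Vale.Agent.P223.H441.SpinDef

/-! Spin structures do not depend on the metric. -/

namespace Vale.Agent.P223.H850

open Matrix
open scoped ContDiff Topology

section
variable {n : ℕ}

theorem bil_mul (A g B : Matrix (Fin n) (Fin n) ℝ) (k l : Fin n) :
    (A * g * Bᵀ) k l = J.bil g (A k) (B l) := by
  unfold J.bil
  simp only [Matrix.mul_apply, Matrix.transpose_apply, Finset.sum_mul]
  rw [Finset.sum_comm]
  exact Finset.sum_congr rfl fun i _ => Finset.sum_congr rfl fun j _ => by ring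

theorem posDef_conj {A g : Matrix (Fin n) (Fin n) ℝ} (hg : g.PosDef) (hA : A.det ≠ 0) :
    (A * g * Aᵀ).PosDef := by
  have h1 : (A * g * Aᴴ).PosSemidef := hg.posSemidef.mul_mul_conjTranspose_same A
  rw [Matrix.conjTranspose_eq_transpose_of_trivial] at h1
  refine h1.posDef_iff_det_ne_zero.2 ?_
  rw [Matrix.det_mul, Matrix.det_mul, Matrix.det_transpose]
  exact mul_ne_zero (mul_ne_zero hA hg.det_pos.ne') hA

section
attribute [local instance] Matrix.linftyOpNormedRing Matrix.linftyOpNormedAlgebra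

theorem contDiffAt_inv {E : Type*} [NormedAddCommGroup E] [NormedSpace ℝ E] {x₀ : E}
    {P : E → Matrix (Fin n) (Fin n) ℝ}
    (hP : ∀ i j, ContDiffAt ℝ ∞ (fun x => P x i j) x₀) (h0 : (P x₀).det ≠ 0)
    (i j : Fin n) : ContDiffAt ℝ ∞ (fun x => (P x)⁻¹ i j) x₀ := by
  have hPm := contDiffAt_mat hP
  have hu : IsUnit (P x₀) := (Matrix.isUnit_iff_isUnit_det _).2 (isUnit_iff_ne_zero.2 h0)
  obtain ⟨u, hu⟩ := hu
  have h1 : ContDiffAt ℝ ∞ (Ring.inverse : Matrix (Fin n) (Fin n) ℝ → _) (P x₀) := by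
    rw [← hu]; exact contDiffAt_ringInverse ℝ u
  have h2 : ContDiffAt ℝ ∞ (fun x => (P x)⁻¹) x₀ := by
    have h3 : (fun x => (P x)⁻¹) = fun x => Ring.inverse (P x) := by
      funext x; exact Matrix.nonsing_inv_eq_ringInverse _
    rw [h3]
    exact h1.comp x₀ hPm
  exact ((Matrix.entryLinearMap ℝ ℝ i j).toContinuousLinearMap.contDiff.contDiffAt).comp x₀ h2

end

end

variable {n : ℕ} {M : Type} [TopologicalSpace M] {c : M → J.Ch n M} {g g' : M → J.Mtx n}

/-- Gram matrix of the frame -/
noncomputable def gram (S : J.SpinStr c g) (g' : M → J.Mtx n) (a : M) (x : J.E n) :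
    Matrix (Fin n) (Fin n) ℝ := (S.β a x * g' a x * (S.β a x)ᵀ)

/-- new frame -/
noncomputable def nfr (S : J.SpinStr c g) (g' : M → J.Mtx n) (a : M) (x : J.E n) :
    Matrix (Fin n) (Fin n) ℝ := (rt (gram S g' a x))⁻¹ * S.β a x

theorem gram_pos (hg' : J.Met c g') (S : J.SpinStr c g) {a p : M} (hp : p ∈ (c a).source) :
    (gram S g' a (c a p)).PosDef :=
  posDef_conj (hg' a p hp).2.1 (S.frame a p hp).1.ne'

theorem gram_ev (hg' : J.Met c g') (S : J.SpinStr c g) {a p : M} (hp : p ∈ (c a).source) :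
    ∀ᶠ x in 𝓝 (c a p), (gram S g' a x).PosDef := by
  filter_upwards [(c a).open_target.mem_nhds ((c a).map_source hp)] with x hx
  have := gram_pos hg' S ((c a).map_target hx)
  rwa [(c a).right_inv hx] at this

theorem spin_transport (hg : J.Met c g) (hg' : J.Met c g') (S : J.SpinStr c g) :
    Nonempty (J.SpinStr c g') := by
  refine ⟨{ β := nfr S g', s := S.s, smooth := ?_, frame := ?_, mem := S.mem,
            smooth' := S.smooth', lift := ?_, coc := S.coc }⟩
  · intro a p hp k l
    have h1 : ∀ i j, ContDiffAt ℝ ∞ (fun x => gram S g' a x i j) (c a p) := by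
      intro i j
      unfold gram
      simp only [Matrix.mul_apply, Matrix.transpose_apply]
      exact ContDiffAt.sum fun m _ => (ContDiffAt.sum fun m' _ =>
        (S.smooth a p hp i m').mul ((hg' a p hp).1 m' m)).mul (S.smooth a p hp j m)
    have h2 := contDiffAt_rt h1 (gram_ev hg' S hp)
    have h3 := contDiffAt_inv h2 (rt_posDef (gram_pos hg' S hp)).det_pos.ne'
    unfold nfr
    simp only [Matrix.mul_apply]
    exact ContDiffAt.sum fun m _ => (h3 k m).mul (S.smooth a p hp m l)
  · intro a p hp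
    have hP := gram_pos hg' S hp
    set Q := rt (gram S g' a (c a p)) with hQ
    have hQd : Q.PosDef := rt_posDef hP
    have hQu : IsUnit Q.det := isUnit_iff_ne_zero.2 hQd.det_pos.ne'
    refine ⟨?_, fun k l => ?_⟩
    · unfold nfr
      rw [Matrix.det_mul, Matrix.det_nonsing_inv, Ring.inverse_eq_inv']
      exact mul_pos (inv_pos.2 hQd.det_pos) (S.frame a p hp).1
    · rw [← bil_mul]
      have h1 : nfr S g' a (c a p) * g' a (c a p) * (nfr S g' a (c a p))ᵀ = 1 := by
        unfold nfr
        rw [Matrix.transpose_mul, ← hQ, Matrix.transpose_nonsing_inv, rt_symm hP]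
        calc Q⁻¹ * S.β a (c a p) * g' a (c a p) * ((S.β a (c a p))ᵀ * Q⁻¹)
            = Q⁻¹ * (S.β a (c a p) * g' a (c a p) * (S.β a (c a p))ᵀ) * Q⁻¹ := by
              simp only [Matrix.mul_assoc]
          _ = Q⁻¹ * (Q * Q) * Q⁻¹ := by
              rw [show S.β a (c a p) * g' a (c a p) * (S.β a (c a p))ᵀ = Q * Q from
                (rt_mul hP).symm]
          _ = 1 := by
              rw [← Matrix.mul_assoc, Matrix.nonsing_inv_mul _ hQu, Matrix.one_mul,
                Matrix.mul_nonsing_inv _ hQu]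
      rw [h1, Matrix.one_apply]
  · intro a b p hpa hpb v w hvw
    -- the transition matrix
    set D := fderiv ℝ (J.cm (c a) (c b)) (c a p) with hD
    set A := S.β a (c a p) with hA
    set B := S.β b (c b p) with hB
    have hBu : IsUnit B.det := isUnit_iff_ne_zero.2 (S.frame b p hpb).1.ne'
    set N : Matrix (Fin n) (Fin n) ℝ := Matrix.of fun k => D (A k) with hN
    set R : Matrix (Fin n) (Fin n) ℝ := N * B⁻¹ with hR
    have hRB : R * B = N := by
      rw [hR, Matrix.mul_assoc, Matrix.nonsing_inv_mul _ hBu, Matrix.mul_one]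
    have hlin : ∀ u : J.E n, D (∑ k, u k • A k) = ∑ k, (u ᵥ* R) k • B k := by
      intro u
      rw [map_sum]
      simp only [map_smul]
      have h1 : ∀ k, D (A k) = ∑ l, R k l • B l := by
        intro k
        have h2 : (R * B) k = D (A k) := by rw [hRB]; rfl
        rw [← h2]
        funext m
        rw [Matrix.mul_apply, Finset.sum_apply]
        rfl
      simp only [h1, Finset.smul_sum, smul_smul]
      rw [Finset.sum_comm]
      refine Finset.sum_congr rfl fun l _ => ?_
      rw [← Finset.sum_smul]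
      rfl
    have hgen : ∀ (h : M → J.Mtx n), J.Met c h →
        A * h a (c a p) * Aᵀ = R * (B * h b (c b p) * Bᵀ) * Rᵀ := by
      intro h hh
      have h1 : A * h a (c a p) * Aᵀ = N * h b (c b p) * Nᵀ := by
        ext k l
        rw [bil_mul, bil_mul]
        exact (hh a p hpa).2.2 b hpb (A k) (A l)
      rw [h1, ← hRB, Matrix.transpose_mul]
      simp only [Matrix.mul_assoc]
    have hone : ∀ (a : M) (hpa : p ∈ (c a).source),
        S.β a (c a p) * g a (c a p) * (S.β a (c a p))ᵀ = 1 := by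
      intro a hpa
      ext k l
      rw [bil_mul, (S.frame a p hpa).2, Matrix.one_apply]
    have hRR : R * Rᵀ = 1 := by
      have h1 := hgen g hg
      rw [hone b hpb, Matrix.mul_one] at h1
      rw [← h1]; exact hone a hpa
    have hRR' : Rᵀ * R = 1 := mul_eq_one_comm.1 hRR
    set Pa := gram S g' a (c a p) with hPa
    set Pb := gram S g' b (c b p) with hPb
    have hPP : Pa = R * Pb * Rᵀ := hgen g' hg'
    have hPap : Pa.PosDef := gram_pos hg' S hpa
    have hPbp : Pb.PosDef := gram_pos hg' S hpb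
    have hrt : rt Pa = R * rt Pb * Rᵀ := by
      refine rt_eq hPap ?_ ?_
      · have := (rt_posDef hPbp).posSemidef.mul_mul_conjTranspose_same R
        rwa [Matrix.conjTranspose_eq_transpose_of_trivial] at this
      · calc R * rt Pb * Rᵀ * (R * rt Pb * Rᵀ) = R * (rt Pb * (Rᵀ * R) * rt Pb) * Rᵀ := by
              simp only [Matrix.mul_assoc]
          _ = Pa := by rw [hRR', Matrix.mul_one, rt_mul hPbp, ← hPP]
    have hau : IsUnit (rt Pa).det := isUnit_iff_ne_zero.2 (rt_posDef hPap).det_pos.ne'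
    have hbu : IsUnit (rt Pb).det := isUnit_iff_ne_zero.2 (rt_posDef hPbp).det_pos.ne'
    have hcomm : (rt Pa)⁻¹ * R = R * (rt Pb)⁻¹ := by
      have h1 : rt Pa * R = R * rt Pb := by
        rw [hrt, Matrix.mul_assoc, hRR', Matrix.mul_one]
      calc (rt Pa)⁻¹ * R = (rt Pa)⁻¹ * (R * rt Pb) * (rt Pb)⁻¹ := by
            rw [Matrix.mul_assoc, Matrix.mul_assoc, Matrix.mul_nonsing_inv _ hbu, Matrix.mul_one]
        _ = R * (rt Pb)⁻¹ := by
            rw [← h1, ← Matrix.mul_assoc, Matrix.nonsing_inv_mul _ hau, Matrix.one_mul]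
    -- coordinates
    have hco : ∀ (u : J.E n) (Q A : Matrix (Fin n) (Fin n) ℝ),
        ∑ k, u k • (Q * A) k = ∑ k, (u ᵥ* Q) k • A k := by
      intro u Q A
      have h1 : ∀ k, (Q * A) k = ∑ l, Q k l • A l := by
        intro k; funext m
        rw [Matrix.mul_apply, Finset.sum_apply]
        rfl
      simp only [h1, Finset.smul_sum, smul_smul]
      rw [Finset.sum_comm]
      refine Finset.sum_congr rfl fun l _ => ?_
      rw [← Finset.sum_smul]
      rfl
    have hvw' : D (∑ k, (v ᵥ* (rt Pa)⁻¹) k • A k) = ∑ k, (w ᵥ* (rt Pb)⁻¹) k • B k := by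
      rw [← hco, ← hco]; exact hvw
    rw [hlin] at hvw'
    have hinj : ∀ u u' : J.E n, ∑ k, u k • B k = ∑ k, u' k • B k → u = u' := by
      intro u u' h
      have h1 : u ᵥ* B = u' ᵥ* B := by
        have h2 : ∀ u : J.E n, u ᵥ* B = ∑ k, u k • B k := by
          intro u; funext m
          rw [Finset.sum_apply]
          rfl
        rw [h2, h2, h]
      have h3 := congrArg (fun z => z ᵥ* B⁻¹) h1
      simpa [Matrix.vecMul_vecMul, Matrix.mul_nonsing_inv _ hBu] using h3
    have h5 := hinj _ _ hvw'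
    rw [Matrix.vecMul_vecMul, hcomm, ← Matrix.vecMul_vecMul] at h5
    have h6 : v ᵥ* R = w := by
      have h7 := congrArg (fun z => z ᵥ* rt Pb) h5
      simpa [Matrix.vecMul_vecMul, Matrix.mul_assoc, Matrix.nonsing_inv_mul _ hbu] using h7
    refine S.lift a b p hpa hpb v w ?_
    change D (∑ k, v k • A k) = ∑ k, w k • B k
    rw [hlin, h6]

end Vale.Agent.P223.H850
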