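import Vale.Agent.P223.H850.W3
import Vale.Agent.P223.H850.Spin
import Vale.Agent.P223.H441.Final

/-! P223: simplicial volume of spin manifolds with `Scal ≥ 0`, from the block `SpecPair`. -/

namespace Vale.Agent.P223.H850

open scoped ContDiff
open MeasureTheory Vale.Agent.P223.H Vale.Agent.P223.X H566 H441

/-- coverings with a spinor bundle (for all metrics), `Scal ≥ 0` -/
theorem svX_zero_of_nonneg (hp : SpecPair) {n : ℕ} {M X Γ I V : Type} [TopologicalSpace M]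
    [TopologicalSpace X] [Group Γ] [MulAction Γ X] [Fintype I] [T2Space X]
    [SimplyConnectedSpace X] [T2Space M] [CompactSpace M] [ConnectedSpace M]
    [NormedAddCommGroup V] [InnerProductSpace ℂ V]
    [FiniteDimensional ℂ V] {C : Cov n M X Γ I} {K : Cliff n V}
    (S : ∀ G, MetX C G → Nonempty (SpX C G K)) (hn : 4 ≤ n) (hV : 0 < Module.finrank ℂ V)
    (hinf : ∃ s : ℕ → X, MT.Dist Γ s) {G : I → E n → Matrix (Fin n) (Fin n) ℝ} (hm : MetX C G)
    (h : ∀ i y, 0 ≤ H.scal (G i) y) : svX C = 0 := by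
  have hb := Vale.Agent.P223.X.hb
  let _ : MeasurableSpace M := borel M
  have : BorelSpace M := ⟨rfl⟩
  let _ : MeasurableSpace X := borel X
  have : BorelSpace X := ⟨rfl⟩
  by_cases h3 : ∃ i y, 0 < H.scal (G i) y
  · obtain ⟨s, hs, w, hw, -⟩ := gst_of_nonneg hm h h3
    obtain ⟨S'⟩ := S G hm
    exact svX_zero hp S' (by omega) hV hinf hs hw
  have h4 : ∀ i y, H.scal (G i) y = 0 := fun i y =>
    le_antisymm (not_lt.1 fun hlt => h3 ⟨i, y, hlt⟩) (h i y)
  by_cases h5 : ∃ i y, ∃ a b, H.ric (G i) y a b ≠ 0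
  · obtain ⟨ε, t, hG', s, hs, w, hw, -⟩ := gst_of_zero hm h4 h5
    obtain ⟨S'⟩ := S _ hG'
    exact svX_zero hp S' (by omega) hV hinf hs hw
  push Not at h5
  obtain ⟨ν, hν⟩ := (hb.vol n M X Γ I C _ hm).2.2.1
  refine le_antisymm ((Final.ricci hb C hinf hn G hm (fun _ => 0) continuous_const
    (fun _ => le_rfl) (fun i y w => ?_) ν hν).trans ?_) bot_le
  · simp [h5]
  · have h6 : ((0 : ℝ) ^ ((n : ℝ) / 2)) = 0 := Real.zero_rpow (by
      have : (4 : ℝ) ≤ n := by exact_mod_cast hn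
      positivity)
    simp [h6]

/-- spin manifolds with a metric of scalar curvature `≥ 0` -/
theorem sv_zero_of_nonneg (hp : SpecPair) {n : ℕ} (hn : 4 ≤ n) {M : Type} [TopologicalSpace M]
    [CompactSpace M] [T2Space M] [ConnectedSpace M] {c : M → J.Ch n M} (hc : J.Atl c)
    {g₀ g : M → J.Mtx n} (hg₀ : J.Met c g₀) (S : J.SpinStr c g₀) (hg : J.Met c g)
    (h : ∀ p, 0 ≤ J.scal (g p) (c p p)) : J.sv c = 0 := by
  have hu := Vale.Agent.P223.X.hu
  have hb := Vale.Agent.P223.X.hb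
  let _ : MeasurableSpace M := borel M
  have : BorelSpace M := ⟨rfl⟩
  obtain ⟨d⟩ := FinalM.exists_data hu (by omega) c hc
  let _ : MeasurableSpace d.X := borel d.X
  have : BorelSpace d.X := ⟨rfl⟩
  have hm := (hu.met n M d.X d.Γ d.I c d.B d.C hc d.hCB).1 g hg
  have h1 : ∀ q, scM d.C (d.B.G g) q = J.scal (g q) (c q q) := FinalM.scM_eq hu hc d hg
  have hfin : 0 < Module.finrank ℂ (H441.Sp n) := Nat.pos_of_ne_zero finrank_Sp
  refine le_antisymm ((hu.sv n M d.X d.Γ d.I c d.B d.C hc d.hCB).trans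
    (svX_zero_of_nonneg hp (K := Kex n) (fun G hG => ?_) hn hfin d.inf hm fun i y => ?_).le) bot_le
  · obtain ⟨ν, hν⟩ := (hb.vol n M d.X d.Γ d.I d.C _ hG).2.2.1
    obtain ⟨g₁, hg₁, hGg, -⟩ := hu.mini n M d.X d.Γ d.I c d.B d.C _ ν hc d.hCB hG hν
    obtain ⟨S'⟩ := spin_transport hg₀ hg₁ S
    rw [← hGg]
    exact ⟨SpX.ofU (spU hc d.hCB hg₁ (Kex n) S')⟩
  · rw [← Final.scM_eq hm i y, h1]
    exact h _

end Vale.Agent.P223.H850
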