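import Vale.Agent.P223.H850.W3
import Mathlib.Analysis.Calculus.BumpFunction.Convolution
import Mathlib.Analysis.Calculus.BumpFunction.FiniteDimension
import Mathlib.MeasureTheory.Measure.Haar.OfBasis

/-! Approximation of `C²` functions by smooth functions. -/

namespace Vale.Agent.P223.H850

open scoped ContDiff Topology Convolution Pointwise
open MeasureTheory Vale.Agent.P223.H Vale.Agent.P223.X Vale.Agent.P223.X.Avg

section loc
variable {n : ℕ}

/-- convolution with a bump function -/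
noncomputable def mo (φ : ContDiffBump (0 : E n)) (g : E n → ℝ) : E n → ℝ :=
  (φ.normed volume) ⋆[ContinuousLinearMap.lsmul ℝ ℝ, volume] g

theorem mo_smooth (φ : ContDiffBump (0 : E n)) {g : E n → ℝ} (hg : Continuous g) :
    ContDiff ℝ ∞ (mo φ g) :=
  HasCompactSupport.contDiff_convolution_left (n := ⊤) _ φ.hasCompactSupport_normed
    φ.contDiff_normed hg.locallyIntegrable

theorem mo_pd (φ : ContDiffBump (0 : E n)) {g : E n → ℝ} (hg : ContDiff ℝ 1 g)
    (hc : HasCompactSupport g) (k : Fin n) (x : E n) : H.pd k (mo φ g) x = mo φ (H.pd k g) x := by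
  have hli : LocallyIntegrable (φ.normed volume) (volume : Measure (E n)) :=
    φ.continuous_normed.locallyIntegrable
  have h1 := hc.hasFDerivAt_convolution_right (ContinuousLinearMap.lsmul ℝ ℝ) hli hg x
  unfold H.pd
  rw [show mo φ g = (φ.normed volume) ⋆[ContinuousLinearMap.lsmul ℝ ℝ, volume] g from rfl,
    h1.fderiv]
  unfold mo
  rw [convolution_def, convolution_def]
  have hcd : HasCompactSupport (fderiv ℝ g) := hc.fderiv (𝕜 := ℝ)
  have hce : ConvolutionExists (φ.normed volume) (fderiv ℝ g)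
      ((ContinuousLinearMap.lsmul ℝ ℝ : ℝ →L[ℝ] ℝ →L[ℝ] ℝ).precompR (E n)) volume :=
    hcd.convolutionExists_right _ hli (hg.continuous_fderiv one_ne_zero)
  rw [ContinuousLinearMap.integral_apply (hce x)]
  refine integral_congr_ae (Filter.Eventually.of_forall fun t => ?_)
  simp [ContinuousLinearMap.precompR_apply]

theorem mo_close {g : E n → ℝ} (hg : Continuous g) (hc : HasCompactSupport g) {δ : ℝ}
    (hδ : 0 < δ) : ∃ r > 0, ∀ φ : ContDiffBump (0 : E n), φ.rOut ≤ r → ∀ x,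
      |mo φ g x - g x| ≤ δ := by
  have hu := hc.uniformContinuous_of_continuous hg
  obtain ⟨r, hr, h⟩ := Metric.uniformContinuous_iff.1 hu δ hδ
  refine ⟨r, hr, fun φ hφ x => ?_⟩
  have := φ.dist_normed_convolution_le (μ := (volume : Measure (E n))) (x₀ := x) (ε := δ)
    (g := g) hg.aestronglyMeasurable (fun y hy => (h (lt_of_lt_of_le hy hφ)).le)
  rwa [Real.dist_eq] at this

theorem mo_supp (φ : ContDiffBump (0 : E n)) {g : E n → ℝ} {R : ℝ} (hφ : φ.rOut ≤ 1)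
    (hg : ∀ y, R ≤ ‖y‖ → g y = 0) (y : E n) (hy : R + 1 ≤ ‖y‖) : mo φ g y = 0 := by
  by_contra hne
  have h1 : y ∈ Function.support (φ.normed (volume : Measure (E n))) + Function.support g :=
    support_convolution_subset _ (by exact hne)
  obtain ⟨a, ha, b, hb, rfl⟩ := Set.mem_add.1 h1
  rw [φ.support_normed_eq, mem_ball_zero_iff] at ha
  have h2 : ‖b‖ < R := by
    by_contra hcon
    exact hb (hg b (not_lt.1 hcon))
  have h3 := norm_add_le a b
  linarith

/-- `C²` approximation of compactly supported functions -/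
theorem approx {g : E n → ℝ} (hg : ContDiff ℝ 2 g) {R : ℝ} (hR : ∀ y, R ≤ ‖y‖ → g y = 0) {δ : ℝ}
    (hδ : 0 < δ) : ∃ h : E n → ℝ, ContDiff ℝ ∞ h ∧ (∀ y, R + 1 ≤ ‖y‖ → h y = 0) ∧
      (∀ y, |h y - g y| ≤ δ) ∧ (∀ k y, |H.pd k h y - H.pd k g y| ≤ δ) ∧
      ∀ k l y, |H.pd k (H.pd l h) y - H.pd k (H.pd l g) y| ≤ δ := by
  have hc : ∀ f : E n → ℝ, (∀ y, R ≤ ‖y‖ → f y = 0) → HasCompactSupport f := by
    intro f hf
    refine HasCompactSupport.of_support_subset_isCompact (isCompact_closedBall (0 : E n) R)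
      fun y hy => ?_
    rw [mem_closedBall_zero_iff]
    by_contra hcon
    exact hy (hf y (not_le.1 hcon).le)
  have hcg := hc g hR
  have hpc : ∀ {f : E n → ℝ}, HasCompactSupport f → ∀ k, HasCompactSupport (H.pd k f) := by
    intro f hf k
    have h1 : HasCompactSupport (fderiv ℝ f) := hf.fderiv (𝕜 := ℝ)
    exact h1.comp_left (g := fun T : E n →L[ℝ] ℝ => T (Pi.single k 1)) rfl
  have hp1 : ∀ k, ContDiff ℝ 1 (H.pd k g) := fun k =>
    Bridge.contDiff_pd hg (k := 1) (by norm_num) k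
  have hp2 : ∀ k l, Continuous (H.pd k (H.pd l g)) := fun k l =>
    (Bridge.contDiff_pd (hp1 l) (k := 0) (by norm_num) k).continuous
  obtain ⟨r0, hr0, h0⟩ := mo_close hg.continuous hcg hδ
  have h1 : ∀ k, ∃ r > 0, ∀ φ : ContDiffBump (0 : E n), φ.rOut ≤ r → ∀ x,
      |mo φ (H.pd k g) x - H.pd k g x| ≤ δ := fun k =>
    mo_close (hp1 k).continuous (hpc hcg k) hδ
  have h2 : ∀ p : Fin n × Fin n, ∃ r > 0, ∀ φ : ContDiffBump (0 : E n), φ.rOut ≤ r → ∀ x,
      |mo φ (H.pd p.1 (H.pd p.2 g)) x - H.pd p.1 (H.pd p.2 g) x| ≤ δ := fun p =>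
    mo_close (hp2 p.1 p.2) (hpc (hpc hcg p.2) p.1) hδ
  choose r1 hr1 h1 using h1
  choose r2 hr2 h2 using h2
  obtain ⟨r, hr, hra, hrb, hrc, hrd⟩ : ∃ r > 0, r ≤ 1 ∧ r ≤ r0 ∧ (∀ k, r ≤ r1 k) ∧
      ∀ p, r ≤ r2 p := by
    have e1 : ∀ᶠ r in 𝓝[>] (0 : ℝ), r ≤ 1 :=
      (Filter.Tendsto.mono_left Filter.tendsto_id nhdsWithin_le_nhds).eventually_le_const one_pos
    have e2 : ∀ᶠ r in 𝓝[>] (0 : ℝ), r ≤ r0 :=
      (Filter.Tendsto.mono_left Filter.tendsto_id nhdsWithin_le_nhds).eventually_le_const hr0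
    have e3 : ∀ᶠ r in 𝓝[>] (0 : ℝ), ∀ k, r ≤ r1 k := Filter.eventually_all.2 fun k =>
      (Filter.Tendsto.mono_left Filter.tendsto_id nhdsWithin_le_nhds).eventually_le_const (hr1 k)
    have e4 : ∀ᶠ r in 𝓝[>] (0 : ℝ), ∀ p, r ≤ r2 p := Filter.eventually_all.2 fun p =>
      (Filter.Tendsto.mono_left Filter.tendsto_id nhdsWithin_le_nhds).eventually_le_const (hr2 p)
    obtain ⟨r, ⟨⟨⟨⟨e1, e2⟩, e3⟩, e4⟩, e5⟩⟩ :=
      ((((e1.and e2).and e3).and e4).and self_mem_nhdsWithin).exists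
    exact ⟨r, e5, e1, e2, e3, e4⟩
  let φ : ContDiffBump (0 : E n) := ⟨r / 2, r, half_pos hr, half_lt_self hr⟩
  have hφ : φ.rOut = r := rfl
  have hpd1 : ∀ k, H.pd k (mo φ g) = mo φ (H.pd k g) := fun k => funext fun x =>
    mo_pd φ (hg.of_le (by norm_num)) hcg k x
  have hpd2 : ∀ k l, H.pd k (H.pd l (mo φ g)) = mo φ (H.pd k (H.pd l g)) := fun k l => by
    rw [hpd1]
    exact funext fun x => mo_pd φ (hp1 l) (hpc hcg l) k x
  refine ⟨mo φ g, mo_smooth φ hg.continuous, fun y hy => mo_supp φ (by rw [hφ]; exact hra) hR y hy,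
    fun y => h0 φ (by rw [hφ]; exact hrb) y, fun k y => ?_, fun k l y => ?_⟩
  · rw [hpd1]; exact h1 k φ (by rw [hφ]; exact hrc k) y
  · rw [hpd2]; exact h2 (k, l) φ (by rw [hφ]; exact hrd (k, l)) y

end loc

end Vale.Agent.P223.H850
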