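import Vale.Agent.P223.H850.Smooth

/-! Approximation of invariant `C²` functions on `X` by smooth invariant functions. -/

namespace Vale.Agent.P223.H850

open scoped ContDiff Topology
open MeasureTheory Vale.Agent.P223.H Vale.Agent.P223.X Vale.Agent.P223.X.Avg

variable {n : ℕ} {M X Γ I : Type} [TopologicalSpace M] [TopologicalSpace X] [Group Γ]
    [MulAction Γ X]

theorem two_le : (2 : WithTop ℕ∞) ≤ ∞ :=
  WithTop.coe_le_coe.2 (le_top : (2 : ℕ∞) ≤ ⊤)

/-- the invariant function which is `k` in the chart `i` -/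
noncomputable def up (C : Cov n M X Γ I) (i : I) (k : E n → ℝ) : X → ℝ :=
  gav (fun _ : Γ => (1 : ℝ)) (C.ex i k)

variable {C : Cov n M X Γ I}

theorem up_inv (i : I) (k : E n → ℝ) (γ : Γ) (x : X) : up C i k (γ • x) = up C i k x :=
  gav_one_inv _ γ x

theorem ex_ck [T2Space X] {i : I} {k : E n → ℝ} {l : WithTop ℕ∞} (hl : l ≤ ∞)
    (hk : ContDiff ℝ l k) (hc : HasCompactSupport k) : C.Ck l (C.ex i k) := by
  intro γ j
  rw [contDiff_iff_contDiffAt]
  intro y
  by_cases hr : γ • C.ψ j y ∈ Set.range (C.ψ i)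
  · have hd : y ∈ C.dom j i γ := hr
    have h1 : ContDiffAt ℝ l (fun z => k (C.tr j i γ z)) y :=
      (hk.contDiffAt).comp y ((contDiffAt_tr C hd).of_le hl)
    refine h1.congr_of_eventuallyEq ?_
    filter_upwards [(isOpen_dom C j i γ).mem_nhds hd] with z hz
    show C.ex i k (γ • C.ψ j z) = k (C.tr j i γ z)
    rw [← tr_spec C hz, Vale.Agent.P223.X.ex_ψ]
  · have hts : γ • C.ψ j y ∉ tsupport (C.ex i k) := by
      intro hs
      have h5 : tsupport (C.ex i k) ⊆ C.ψ i '' tsupport k := by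
        refine closure_minimal (fun z hz => ?_)
          ((IsCompact.image (s := tsupport k) hc (C.emb i).continuous).isClosed)
        by_contra hcon
        refine hz ?_
        unfold Cov.ex
        split_ifs with hzr
        · obtain ⟨t, rfl⟩ := hzr
          rw [Vale.Agent.P223.X.co_ψ]
          by_contra h0
          exact hcon ⟨t, subset_tsupport _ h0, rfl⟩
        · rfl
      obtain ⟨t, -, ht⟩ := h5 hs
      exact hr ⟨t, ht⟩
    have h7 := notMem_tsupport_iff_eventuallyEq.1 hts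
    have hcont : Continuous fun z => γ • C.ψ j z := (C.cont γ).comp (C.emb j).continuous
    refine (contDiffAt_const (c := (0 : ℝ))).congr_of_eventuallyEq ?_
    exact hcont.continuousAt.eventually h7

theorem up_ck [Finite I] [T2Space X] {i : I} {k : E n → ℝ} {l : WithTop ℕ∞} (hl : l ≤ ∞)
    (hk : ContDiff ℝ l k) (hc : HasCompactSupport k) : C.Ck l (up C i k) :=
  Ck_gav C _ _ (hcs_ex C hc) (ex_ck hl hk hc)

theorem up_ψ (i : I) (k : E n → ℝ) (γ : Γ) (y : E n) : up C i k (γ • C.ψ i y) = k y := by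
  rw [up_inv]
  unfold up gav
  rw [finsum_eq_single _ (1 : Γ)]
  · rw [inv_one, one_smul, one_smul, Vale.Agent.P223.X.ex_ψ]
  · intro g hg
    have : g⁻¹ • C.ψ i y ∉ Set.range (C.ψ i) := by
      rintro ⟨y', hy'⟩
      exact hg (inv_eq_one.1 (C.inj i g⁻¹ y y' hy'.symm))
    unfold Cov.ex
    rw [if_neg this, smul_zero]

theorem up_out {i : I} (k : E n → ℝ) {x : X} (hx : ∀ (γ : Γ) y, γ • C.ψ i y ≠ x) :
    up C i k x = 0 := by
  unfold up gav
  refine finsum_eq_zero_of_forall_eq_zero fun g => ?_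
  have : g⁻¹ • x ∉ Set.range (C.ψ i) := by
    rintro ⟨y', hy'⟩
    exact hx g y' (by rw [hy', smul_inv_smul])
  unfold Cov.ex
  rw [if_neg this, smul_zero]

theorem up_sub (i : I) (k l : E n → ℝ) (x : X) :
    up C i (fun y => k y - l y) x = up C i k x - up C i l x := by
  by_cases hx : ∃ (γ : Γ) (y : E n), γ • C.ψ i y = x
  · obtain ⟨γ, y, rfl⟩ := hx
    rw [up_ψ, up_ψ, up_ψ]
  · push Not at hx
    rw [up_out _ hx, up_out _ hx, up_out _ hx, sub_zero]

theorem up_abs {i : I} {k : E n → ℝ} {B : ℝ} (hB : 0 ≤ B) (hk : ∀ y, |k y| ≤ B) (x : X) :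
    |up C i k x| ≤ B := by
  by_cases hx : ∃ (γ : Γ) (y : E n), γ • C.ψ i y = x
  · obtain ⟨γ, y, rfl⟩ := hx
    rw [up_ψ]; exact hk y
  · push Not at hx
    rw [up_out _ hx, abs_zero]; exact hB

section
variable {G : I → E n → Matrix (Fin n) (Fin n) ℝ} (hG : MetX C G)
include hG

theorem lap_up [Finite I] [T2Space X] {i : I} {k : E n → ℝ} (hk : ContDiff ℝ 2 k)
    (hc : HasCompactSupport k) {B : ℝ} (hB : 0 ≤ B) (hb : ∀ y, |lap (G i) k y| ≤ B) (x : X) :
    |lapX C G (up C i k) x| ≤ B := by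
  have hck : C.Ck 2 (up C i k) := up_ck two_le hk hc
  by_cases hxr : ∃ (γ : Γ) (y : E n), γ • C.ψ i y = x
  · obtain ⟨γ, y, rfl⟩ := hxr
    rw [Vale.Agent.P223.X.lapX_eq hG hck]
    have : C.rep (up C i k) γ i = k := funext fun z => up_ψ i k γ z
    rw [this]
    exact hb y
  · obtain ⟨γ, j, y, -, rfl⟩ := C.cover x
    rw [Vale.Agent.P223.X.lapX_eq hG hck]
    have hK : IsCompact ((fun z => γ • C.ψ j z) '' Metric.closedBall y 1) :=
      (isCompact_closedBall y 1).image ((C.cont γ).comp (C.emb j).continuous)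
    obtain ⟨F, hF⟩ := fold C (C.ex i k) (L := tsupport (C.ex i k)) (hcs_ex C hc)
      (subset_tsupport _) hK
    have hts : ∀ s : Γ, s⁻¹ • γ • C.ψ j y ∉ tsupport (C.ex i k) := by
      intro s hs
      have h5 : tsupport (C.ex i k) ⊆ C.ψ i '' tsupport k := by
        refine closure_minimal (fun z hz => ?_)
          ((IsCompact.image (s := tsupport k) hc (C.emb i).continuous).isClosed)
        by_contra hcon
        refine hz ?_
        unfold Cov.ex
        split_ifs with hzr
        · obtain ⟨t, rfl⟩ := hzr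
          rw [Vale.Agent.P223.X.co_ψ]
          by_contra h0
          exact hcon ⟨t, subset_tsupport _ h0, rfl⟩
        · rfl
      obtain ⟨t, -, ht⟩ := h5 hs
      exact hxr ⟨s, t, by rw [ht, smul_inv_smul]⟩
    have hev : ∀ᶠ z in 𝓝 y, C.rep (up C i k) γ j z = 0 := by
      have h6 : ∀ᶠ z in 𝓝 y, ∀ s ∈ F, C.ex i k (s⁻¹ • γ • C.ψ j z) = 0 := by
        rw [Filter.eventually_all_finset]
        intro s _
        have h7 := notMem_tsupport_iff_eventuallyEq.1 (hts s)
        have hc : Continuous fun z => s⁻¹ • γ • C.ψ j z :=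
          (C.cont s⁻¹).comp ((C.cont γ).comp (C.emb j).continuous)
        exact hc.continuousAt.eventually h7
      filter_upwards [h6, Metric.closedBall_mem_nhds y one_pos] with z hz hz'
      have h8 := hF (fun _ => 1) 1 (γ • C.ψ j z) ⟨z, hz', rfl⟩
      rw [one_smul] at h8
      unfold Cov.rep up
      rw [h8]
      exact Finset.sum_eq_zero fun s hs => by rw [hz s hs, smul_zero]
    rw [Bas2.lap_congr (g := fun _ => (0 : ℝ)) hev, lap_const 0 y, abs_zero]
    exact hB

omit hG in
/-- a bound for the Laplacian -/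
theorem lap_bound {g : E n → Matrix (Fin n) (Fin n) ℝ} (hs : ∀ i j, ContDiff ℝ ∞ (fun x => g x i j))
    (hp : ∀ x, (g x).PosDef) (R : ℝ) : ∃ L : ℝ, 0 ≤ L ∧ ∀ (k : E n → ℝ) (δ : ℝ), 0 ≤ δ →
      (∀ a y, |H.pd a k y| ≤ δ) → (∀ a b y, |H.pd a (H.pd b k) y| ≤ δ) →
      ∀ y, ‖y‖ ≤ R → |lap g k y| ≤ L * δ := by
  have h1 : ∀ p : Fin n × Fin n, ∃ A, 0 ≤ A ∧ ∀ y, ‖y‖ ≤ R → |(g y)⁻¹ p.1 p.2| ≤ A := by
    intro p
    obtain ⟨A, hA⟩ := (isCompact_closedBall (0 : E n) R).exists_bound_of_continuousOn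
      (Min.cont_Ginv hs hp p.1 p.2).continuous.continuousOn
    exact ⟨|A|, abs_nonneg _, fun y hy => (hA y (mem_closedBall_zero_iff.2 hy)).trans
      (le_abs_self A)⟩
  have h2 : ∀ p : Fin n × Fin n × Fin n, ∃ A, 0 ≤ A ∧ ∀ y, ‖y‖ ≤ R →
      |H.chr g y p.1 p.2.1 p.2.2| ≤ A := by
    intro p
    obtain ⟨A, hA⟩ := (isCompact_closedBall (0 : E n) R).exists_bound_of_continuousOn
      (Min.cont_chr hs hp p.1 p.2.1 p.2.2).continuous.continuousOn
    exact ⟨|A|, abs_nonneg _, fun y hy => (hA y (mem_closedBall_zero_iff.2 hy)).trans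
      (le_abs_self A)⟩
  choose A hA0 hA using h1
  choose D hD0 hD using h2
  refine ⟨∑ i, ∑ j, A (i, j) * (1 + ∑ k, D (k, i, j)), Finset.sum_nonneg fun i _ =>
    Finset.sum_nonneg fun j _ => mul_nonneg (hA0 _) (add_nonneg zero_le_one
      (Finset.sum_nonneg fun k _ => hD0 _)), fun k δ hδ hk1 hk2 y hy => ?_⟩
  unfold lap
  rw [Finset.sum_mul]
  refine (Finset.abs_sum_le_sum_abs _ _).trans (Finset.sum_le_sum fun i _ => ?_)
  rw [Finset.sum_mul]
  refine (Finset.abs_sum_le_sum_abs _ _).trans (Finset.sum_le_sum fun j _ => ?_)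
  rw [abs_mul, mul_assoc]
  refine mul_le_mul (hA (i, j) y hy) ?_ (abs_nonneg _) (hA0 _)
  refine (abs_sub _ _).trans ?_
  rw [add_mul, one_mul, Finset.sum_mul]
  refine add_le_add (hk2 i j y) ((Finset.abs_sum_le_sum_abs _ _).trans
    (Finset.sum_le_sum fun l _ => ?_))
  rw [abs_mul]
  exact mul_le_mul (hD (l, i, j) y hy) (hk1 l y) (abs_nonneg _) (hD0 _)

/-- **Smoothing.** -/
theorem exists_smooth [Fintype I] [T2Space X] {χ : I → E n → ℝ} (hχ : Part C χ) {u : X → ℝ}
    (hu : C.Ck 2 u) (hui : ∀ (γ : Γ) x, u (γ • x) = u x) {δ : ℝ} (hδ : 0 < δ) :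
    ∃ v, Sm C v ∧ (∀ x, |v x - u x| ≤ δ) ∧ ∀ x, |lapX C G v x - lapX C G u x| ≤ δ := by
  have hhc : ∀ {f : E n → ℝ} {R : ℝ}, (∀ y, R ≤ ‖y‖ → f y = 0) → HasCompactSupport f := by
    intro f R hf
    refine HasCompactSupport.of_support_subset_isCompact (isCompact_closedBall (0 : E n) R)
      fun y hy => ?_
    rw [mem_closedBall_zero_iff]
    by_contra hcon
    exact hy (hf y (not_le.1 hcon).le)
  have hL := fun i => lap_bound (hG.smooth i) (hG.pos i) 3
  choose L hL0 hL using hL
  set N : ℝ := 1 + ∑ i, (1 + L i) with hN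
  have hN0 : 0 < N := by
    have : 0 ≤ ∑ i, (1 + L i) := Finset.sum_nonneg fun i _ => by have := hL0 i; linarith
    linarith
  set ε : ℝ := δ / N with hε
  have hε0 : 0 < ε := by positivity
  have hεN : ε * N = δ := by rw [hε]; field_simp
  set k : I → E n → ℝ := fun i y => χ i y * C.rep u 1 i y with hk
  have hkc : ∀ i, ContDiff ℝ 2 (k i) := fun i =>
    (contDiff_infty.1 (hχ.smooth i) 2).mul (hu 1 i)
  have hks : ∀ i y, 2 ≤ ‖y‖ → k i y = 0 := fun i y hy => by
    rw [hk]; simp only; rw [hχ.supp i y hy, zero_mul]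
  choose h hh1 hh2 hh3 hh4 hh5 using fun i => approx (hkc i) (hks i) hε0
  -- the decomposition of `u`
  have hdec : ∀ x, u x = ∑ i, up C i (k i) x := by
    intro x
    have h1 : ∀ i, up C i (k i) x = u x * ∑ᶠ γ : Γ, C.ex i (χ i) (γ • x) := by
      intro i
      by_cases hx : ∃ (γ : Γ) (y : E n), γ • C.ψ i y = x
      · obtain ⟨γ, y, rfl⟩ := hx
        rw [up_ψ, hui, finsum_eq_single _ (γ⁻¹)]
        · rw [inv_smul_smul, Vale.Agent.P223.X.ex_ψ, hk]
          simp only [Cov.rep]
          rw [one_smul]; ring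
        · intro g hg
          have : g • γ • C.ψ i y ∉ Set.range (C.ψ i) := by
            rintro ⟨y', hy'⟩
            rw [← mul_smul] at hy'
            exact hg (eq_inv_of_mul_eq_one_left (C.inj i _ y y' hy'.symm))
          unfold Cov.ex
          rw [if_neg this]
      · push Not at hx
        rw [up_out _ hx, finsum_eq_zero_of_forall_eq_zero, mul_zero]
        intro g
        have : g • x ∉ Set.range (C.ψ i) := by
          rintro ⟨y', hy'⟩
          exact hx g⁻¹ y' (by rw [hy', inv_smul_smul])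
        unfold Cov.ex
        rw [if_neg this]
    rw [Finset.sum_congr rfl fun i _ => h1 i, ← Finset.mul_sum, hχ.sum x, mul_one]
  have hkhc : ∀ i, HasCompactSupport (k i) := fun i => hhc (hks i)
  have hhhc : ∀ i, HasCompactSupport (h i) := fun i => hhc (fun y hy => hh2 i y hy)
  have hupk : ∀ i, C.Ck 2 (up C i (k i)) := fun i =>
    up_ck two_le (hkc i) (hkhc i)
  have huph : ∀ i, C.Ck ∞ (up C i (h i)) := fun i => up_ck le_rfl (hh1 i) (hhhc i)
  have hsumck : ∀ {l : WithTop ℕ∞} {f : I → X → ℝ}, (∀ i, C.Ck l (f i)) →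
      ∀ s : Finset I, C.Ck l (fun x => ∑ i ∈ s, f i x) := by
    intro l f hf s γ j
    exact ContDiff.sum fun i _ => hf i γ j
  have hlsum : ∀ {f : I → X → ℝ}, (∀ i, C.Ck 2 (f i)) → ∀ (s : Finset I) x,
      lapX C G (fun x => ∑ i ∈ s, f i x) x = ∑ i ∈ s, lapX C G (f i) x := by
    classical
    intro f hf s x
    induction s using Finset.induction_on with
    | empty => simp only [Finset.sum_empty]; exact lapX_const hG 0 x
    | insert a s ha ih =>
      simp only [Finset.sum_insert ha]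
      rw [lapX_add hG (hf a) (hsumck hf s), ih]
  set v : X → ℝ := fun x => ∑ i, up C i (h i) x with hv
  have hdiff : ∀ x, v x - u x = ∑ i, up C i (fun y => h i y - k i y) x := by
    intro x
    rw [hdec x, hv, ← Finset.sum_sub_distrib]
    exact Finset.sum_congr rfl fun i _ => (up_sub i _ _ x).symm
  have hdc : ∀ i, ContDiff ℝ 2 (fun y => h i y - k i y) := fun i =>
    (contDiff_infty.1 (hh1 i) 2).sub (hkc i)
  have hds : ∀ i y, 3 ≤ ‖y‖ → h i y - k i y = 0 := fun i y hy => by
    rw [hh2 i y (by linarith), hks i y (by linarith), sub_zero]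
  have hdd : ∀ i, HasCompactSupport (fun y => h i y - k i y) := fun i => hhc (hds i)
  have hle : ∀ i, ε ≤ (1 + L i) * ε := fun i => by nlinarith [hL0 i]
  have hsum : ∑ i, (1 + L i) * ε ≤ δ := by
    rw [← Finset.sum_mul, ← hεN, mul_comm ε N]
    refine mul_le_mul_of_nonneg_right ?_ hε0.le
    rw [hN]; linarith
  have hvk : C.Ck ∞ v := hsumck huph Finset.univ
  refine ⟨v, ⟨hvk, fun γ x => ?_⟩, fun x => ?_, fun x => ?_⟩
  · rw [hv]
    exact Finset.sum_congr rfl fun i _ => up_inv i _ γ x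
  · rw [hdiff]
    refine (Finset.abs_sum_le_sum_abs _ _).trans (le_trans (Finset.sum_le_sum fun i _ => ?_) hsum)
    exact (up_abs hε0.le (hh3 i) x).trans (hle i)
  · have hv2 : C.Ck 2 v := fun γ i => contDiff_infty.1 (hvk γ i) 2
    have h1 : lapX C G v x - lapX C G u x =
        ∑ i, lapX C G (up C i (fun y => h i y - k i y)) x := by
      have h2 : lapX C G v x = lapX C G u x +
          lapX C G (fun x => ∑ i, up C i (fun y => h i y - k i y) x) x := by
        rw [← lapX_add hG hu (hsumck (fun i => up_ck two_le (hdc i)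
          (hdd i)) Finset.univ)]
        congr 1
        funext x
        rw [← hdiff]; ring
      rw [h2, hlsum (fun i => up_ck two_le (hdc i) (hdd i))]
      ring
    rw [h1]
    refine (Finset.abs_sum_le_sum_abs _ _).trans (le_trans (Finset.sum_le_sum fun i _ => ?_) hsum)
    have hp1 : ∀ a y, |H.pd a (fun y => h i y - k i y) y| ≤ ε := by
      intro a y
      have h2 : H.pd a (fun y => h i y - k i y) y = H.pd a (h i) y - H.pd a (k i) y :=
        Bridge.pd_sub ((hh1 i).differentiable (by simp) y) ((hkc i).differentiable (by simp) y)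
      rw [h2]; exact hh4 i a y
    have hp2 : ∀ a b y, |H.pd a (H.pd b (fun y => h i y - k i y)) y| ≤ ε := by
      intro a b y
      have h2 : H.pd b (fun y => h i y - k i y) = fun y => H.pd b (h i) y - H.pd b (k i) y :=
        funext fun y => Bridge.pd_sub ((hh1 i).differentiable (by simp) y)
          ((hkc i).differentiable (by simp) y)
      have h3 : H.pd a (fun y => H.pd b (h i) y - H.pd b (k i) y) y =
          H.pd a (H.pd b (h i)) y - H.pd a (H.pd b (k i)) y :=
        Bridge.pd_sub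
          ((Bridge.contDiff_pd (k := 1) (contDiff_infty.1 (hh1 i) 2) (by norm_num)
            b).differentiable (by simp) y)
          ((Bridge.contDiff_pd (k := 1) (hkc i) (by norm_num) b).differentiable (by simp) y)
      rw [h2, h3]; exact hh5 i a b y
    have hlb : ∀ y, |lap (G i) (fun y => h i y - k i y) y| ≤ L i * ε := by
      intro y
      by_cases hy : ‖y‖ ≤ 3
      · exact hL i _ ε hε0.le hp1 hp2 y hy
      · rw [not_le] at hy
        have hev : ∀ᶠ z in 𝓝 y, h i z - k i z = 0 := by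
          filter_upwards [(isOpen_lt continuous_const continuous_norm).mem_nhds hy] with z hz
          exact hds i z (le_of_lt hz)
        rw [Bas2.lap_congr (g := fun _ => (0 : ℝ)) hev, lap_const, abs_zero]
        exact mul_nonneg (hL0 i) hε0.le
    refine (lap_up hG (hdc i) (hdd i) (mul_nonneg (hL0 i) hε0.le) hlb x).trans ?_
    nlinarith [hL0 i]

end

end Vale.Agent.P223.H850
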