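import Vale.Agent.P223.H850.W
import Vale.Agent.P223.H566.Spec
import Vale.Agent.P223.H.Cor

/-! A function `q ≥ 0` which is not identically zero: `q - Δ v ≥ s > 0` for some smooth `v`. -/

namespace Vale.Agent.P223.H850

open scoped ContDiff Topology
open MeasureTheory Vale.Agent.P223.H Vale.Agent.P223.X Vale.Agent.P223.X.Avg

variable {n : ℕ} {M X Γ I : Type} [TopologicalSpace M] [TopologicalSpace X] [Group Γ]
    [MulAction Γ X]

/-- points where some admissible function is strictly superharmonic -/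
def Good (C : Cov n M X Γ I) (G : I → E n → Matrix (Fin n) (Fin n) ℝ) (Q : Set X) : Set X :=
  {x | x ∉ Q ∨ ∃ v, Sm C v ∧ (∀ z ∈ Q, lapX C G v z ≤ 0) ∧ lapX C G v x < 0}

section
variable {C : Cov n M X Γ I} {G : I → E n → Matrix (Fin n) (Fin n) ℝ} (hG : MetX C G)
include hG

theorem Good.isOpen {Q : Set X} (hQ : IsClosed Q) : IsOpen (Good C G Q) := by
  rw [isOpen_iff_mem_nhds]
  rintro x (hx | ⟨v, hv, h1, h2⟩)
  · filter_upwards [hQ.isOpen_compl.mem_nhds hx] with z hz using Or.inl hz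
  · filter_upwards [(isOpen_lt (hv.lap_cont hG) continuous_const).mem_nhds h2] with z hz
    exact Or.inr ⟨v, hv, h1, hz⟩

theorem Good.smul {Q : Set X} (hi : ∀ (γ : Γ) x, x ∈ Q → γ • x ∈ Q) {x : X} (γ : Γ)
    (hx : x ∈ Good C G Q) : γ • x ∈ Good C G Q := by
  rcases hx with hx | ⟨v, hv, h1, h2⟩
  · refine Or.inl fun h => hx ?_
    have := hi γ⁻¹ _ h
    rwa [inv_smul_smul] at this
  · exact Or.inr ⟨v, hv, h1, by rwa [hv.lap_inv hG]⟩

theorem Good.compact {Q : Set X} (hQ : IsClosed Q) {B : Set X} (hB : IsCompact B)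
    (hBG : B ⊆ Good C G Q) :
    ∃ v, Sm C v ∧ (∀ z ∈ Q, lapX C G v z ≤ 0) ∧ ∀ x ∈ B, x ∈ Q → lapX C G v x < 0 := by
  refine IsCompact.induction_on (p := fun S : Set X => ∃ v, Sm C v ∧
    (∀ z ∈ Q, lapX C G v z ≤ 0) ∧ ∀ x ∈ S, x ∈ Q → lapX C G v x < 0) hB ?_ ?_ ?_ ?_
  · exact ⟨fun _ => 0, Sm.const 0, fun z _ => (lapX_const hG 0 z).le, fun x hx => hx.elim⟩
  · rintro s t hst ⟨v, hv, h1, h2⟩
    exact ⟨v, hv, h1, fun x hx => h2 x (hst hx)⟩
  · rintro s t ⟨v, hv, h1, h2⟩ ⟨w, hw, h3, h4⟩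
    refine ⟨_, hv.add hw, fun z hz => ?_, fun x hx hxQ => ?_⟩
    · rw [lapX_add hG hv.c2 hw.c2]
      have := h1 z hz
      have := h3 z hz
      linarith
    · rw [lapX_add hG hv.c2 hw.c2]
      rcases hx with hx | hx
      · have := h2 x hx hxQ
        have := h3 x hxQ
        linarith
      · have := h1 x hxQ
        have := h4 x hx hxQ
        linarith
  · intro x hx
    rcases hBG hx with hx' | ⟨v, hv, h1, h2⟩
    · exact ⟨Qᶜ, mem_nhdsWithin_of_mem_nhds (hQ.isOpen_compl.mem_nhds hx'), fun _ => 0,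
        Sm.const 0, fun z _ => (lapX_const hG 0 z).le, fun z hz hz' => (hz hz').elim⟩
    · exact ⟨{z | lapX C G v z < 0}, mem_nhdsWithin_of_mem_nhds
        ((isOpen_lt (hv.lap_cont hG) continuous_const).mem_nhds h2), v, hv, h1, fun z hz _ => hz⟩

theorem Good.isClosed [Finite I] [T2Space X] {Q : Set X} (hQ : IsClosed Q)
    (hi : ∀ (γ : Γ) x, x ∈ Q → γ • x ∈ Q) : IsClosed (Good C G Q) := by
  refine isClosed_of_closure_subset fun x hx => ?_
  by_cases hxQ : x ∈ Q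
  swap
  · exact Or.inl hxQ
  obtain ⟨γ, i, y, -, rfl⟩ := C.cover x
  have hcont : Continuous fun z => γ • C.ψ i z := (C.cont γ).comp (C.emb i).continuous
  -- the open set
  have hop : IsOpen ((fun z => γ • C.ψ i z) '' {c | rh y c < 1}) := by
    have h1 : IsOpen {c : E n | rh y c < 1} := isOpen_lt (rh_cd y).continuous continuous_const
    have h2 := (C.emb i).isOpenMap _ h1
    have h3 : (fun z => γ • C.ψ i z) '' {c | rh y c < 1} =
        (fun x => γ⁻¹ • x) ⁻¹' (C.ψ i '' {c | rh y c < 1}) := by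
      ext z
      constructor
      · rintro ⟨c, hc, rfl⟩
        exact ⟨c, hc, by simp⟩
      · rintro ⟨c, hc, hz⟩
        exact ⟨c, hc, by simp only [hz, smul_inv_smul]⟩
    rw [h3]
    exact h2.preimage (C.cont γ⁻¹)
  obtain ⟨_, ⟨c, hc, rfl⟩, hcG⟩ := mem_closure_iff.1 hx _ hop ⟨y, by simp [rh_self], rfl⟩
  -- a small ball around `c`
  have hGo := Good.isOpen hG hQ
  obtain ⟨ε, hε, hεG⟩ := Metric.isOpen_iff.1 (hGo.preimage hcont) c hcG
  by_cases hyc : rh c y < (ε / 2) ^ 2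
  · refine hεG ?_
    rw [Metric.mem_ball, dist_pi_lt_iff hε]
    intro k
    have := le_rh c y k
    rw [Real.dist_eq]
    have h5 : |y k - c k| < ε / 2 := abs_lt_of_sq_lt_sq (lt_of_le_of_lt this hyc) (by linarith)
    linarith
  rw [not_lt] at hyc
  have hball : ∀ z, rh c z ≤ (ε / 2) ^ 2 → γ • C.ψ i z ∈ Good C G Q := by
    intro z hz
    refine hεG ?_
    rw [Metric.mem_ball, dist_pi_lt_iff hε]
    intro k
    have := le_rh c z k
    rw [Real.dist_eq]
    have h5 : |z k - c k| ≤ ε / 2 := abs_le_of_sq_le_sq (le_trans this hz) (by linarith)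
    linarith
  set r : ℝ := (ε / 2) ^ 2 with hr
  have hr0 : 0 < r := by positivity
  have hy1 : rh c y < 1 := by rw [rh_comm]; exact hc
  have hr1 : r < 1 := lt_of_le_of_lt hyc hy1
  obtain ⟨η, hη, h1, h2⟩ := bumpX hG i c hr0 hr1
  -- the compact set
  set B : Set X := (fun z => γ • C.ψ i z) '' {z | rh c z ≤ r} with hBdef
  have hB : IsCompact B := (isCompact_rh c r).image hcont
  obtain ⟨v, hv, h3, h4⟩ := Good.compact hG hQ hB (by
    rintro _ ⟨z, hz, rfl⟩; exact hball z hz)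
  have hBQ : IsCompact (B ∩ Q) := hB.inter_right hQ
  obtain ⟨s, hs, hs'⟩ : ∃ s > 0, ∀ z ∈ B ∩ Q, lapX C G v z ≤ -s := by
    rcases (B ∩ Q).eq_empty_or_nonempty with he | hne
    · exact ⟨1, one_pos, fun z hz => by rw [he] at hz; exact hz.elim⟩
    · obtain ⟨z₀, hz₀, hmax⟩ := hBQ.exists_isMaxOn hne (hv.lap_cont hG).continuousOn
      refine ⟨-lapX C G v z₀, neg_pos.2 (h4 z₀ hz₀.1 hz₀.2), fun z hz => ?_⟩
      rw [neg_neg]
      exact hmax hz
  obtain ⟨K, hK⟩ := hB.exists_bound_of_continuousOn (hη.lap_cont hG).continuousOn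
  have hK0 : 0 ≤ K := (norm_nonneg _).trans (hK (γ • C.ψ i c) ⟨c, by simp [rh_self, hr0.le], rfl⟩)
  set t : ℝ := s / (K + 1) with ht
  have ht0 : 0 < t := by positivity
  have htK : t * K ≤ s := by
    rw [ht, div_mul_eq_mul_div, div_le_iff₀ (by positivity)]
    nlinarith
  refine Or.inr ⟨_, hv.add (hη.smul t), fun z hz => ?_, ?_⟩
  · rw [lapX_add hG hv.c2 (hη.smul t).c2, lapX_mul hG t hη.c2]
    by_cases hzB : ∃ (γ' : Γ) (y' : E n), rh c y' < r ∧ γ' • C.ψ i y' = z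
    · obtain ⟨γ', y', hy', rfl⟩ := hzB
      have h6 : γ • C.ψ i y' = (γ * γ'⁻¹) • γ' • C.ψ i y' := by
        rw [mul_smul, inv_smul_smul]
      have hm : γ • C.ψ i y' ∈ B ∩ Q := ⟨⟨y', hy'.le, rfl⟩, by rw [h6]; exact hi _ _ hz⟩
      have h7 := hs' _ hm
      have h8 := hK _ hm.1
      rw [h6, hv.lap_inv hG] at h7
      rw [h6, hη.lap_inv hG, Real.norm_eq_abs] at h8
      have h9 := (abs_le.1 h8).2
      nlinarith
    · push Not at hzB
      have h7 := h1 z fun γ' y' hy' => hzB γ' y' hy'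
      have h8 := h3 z hz
      nlinarith
  · rw [lapX_add hG hv.c2 (hη.smul t).c2, lapX_mul hG t hη.c2]
    have h7 := h2 γ y hyc hy1
    have h8 := h3 _ hxQ
    nlinarith

/-- Lemma V. -/
theorem lemV [Finite I] [T2Space X] [ConnectedSpace X] {q : X → ℝ} (hq : Continuous q)
    (h0 : ∀ x, 0 ≤ q x) (hi : ∀ (γ : Γ) x, q (γ • x) = q x) {x₀ : X} (hx₀ : 0 < q x₀) :
    ∃ v, Sm C v ∧ ∃ s > 0, ∀ x, s ≤ q x - lapX C G v x := by
  set δ : ℝ := q x₀ / 2 with hδ
  have hδ0 : 0 < δ := by positivity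
  set Q : Set X := {x | q x ≤ δ} with hQdef
  have hQ : IsClosed Q := isClosed_le hq continuous_const
  have hQi : ∀ (γ : Γ) x, x ∈ Q → γ • x ∈ Q := fun γ x hx => by
    change q (γ • x) ≤ δ
    rw [hi]; exact hx
  have huniv : Good C G Q = Set.univ := by
    refine IsClopen.eq_univ ⟨Good.isClosed hG hQ hQi, Good.isOpen hG hQ⟩ ⟨x₀, Or.inl fun h => ?_⟩
    have : q x₀ ≤ q x₀ / 2 := h
    linarith
  set K : Set X := ⋃ i, C.ψ i '' {y : E n | ‖y‖ ≤ 1} with hKdef
  have hK : IsCompact K := isCompact_core C 1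
  obtain ⟨v, hv, h1, h2⟩ := Good.compact hG hQ hK (by rw [huniv]; exact Set.subset_univ _)
  have hcov : ∀ x : X, ∃ (γ : Γ) (z : X), z ∈ K ∧ γ • z = x := by
    intro x
    obtain ⟨γ, i, y, hy, rfl⟩ := C.cover x
    refine ⟨γ, C.ψ i y, Set.mem_iUnion.2 ⟨i, y, ?_, rfl⟩, rfl⟩
    exact (pi_norm_le_iff_of_nonneg zero_le_one).2 fun k => by
      rw [Real.norm_eq_abs]; exact (hy k).le
  have hKQ : IsCompact (K ∩ Q) := hK.inter_right hQ
  obtain ⟨s, hs, hs'⟩ : ∃ s > 0, ∀ z ∈ K ∩ Q, lapX C G v z ≤ -s := by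
    rcases (K ∩ Q).eq_empty_or_nonempty with he | hne
    · exact ⟨1, one_pos, fun z hz => by rw [he] at hz; exact hz.elim⟩
    · obtain ⟨z₀, hz₀, hmax⟩ := hKQ.exists_isMaxOn hne (hv.lap_cont hG).continuousOn
      refine ⟨-lapX C G v z₀, neg_pos.2 (h2 z₀ hz₀.1 hz₀.2), fun z hz => ?_⟩
      rw [neg_neg]
      exact hmax hz
  obtain ⟨B, hB⟩ := hK.exists_bound_of_continuousOn (hv.lap_cont hG).continuousOn
  set b : ℝ := |B| + 1 with hb
  have hb0 : 0 < b := by positivity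
  set β : ℝ := δ / (2 * b) with hβ
  have hβ0 : 0 < β := by positivity
  have hβb : β * b = δ / 2 := by rw [hβ]; field_simp
  refine ⟨_, hv.smul β, min (β * s) (δ / 2), lt_min (by positivity) (by positivity), fun x => ?_⟩
  rw [lapX_mul hG β hv.c2]
  obtain ⟨γ, z, hz, rfl⟩ := hcov x
  rw [hi, hv.lap_inv hG]
  by_cases hzQ : z ∈ Q
  · have h3 := hs' z ⟨hz, hzQ⟩
    have h4 := h0 z
    have h5 := min_le_left (β * s) (δ / 2)
    nlinarith
  · have h3 : δ < q z := not_le.1 hzQ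
    have h4 := hB z hz
    rw [Real.norm_eq_abs] at h4
    have h5 : lapX C G v z ≤ b := by
      have := le_abs_self (lapX C G v z)
      have := le_abs_self B
      linarith
    have h6 := min_le_right (β * s) (δ / 2)
    nlinarith

/-- Positive functions `w` with `-Δ w + (Scal / 4) w ≥ s w`, if `Scal ≥ 0` and `Scal ≢ 0`. -/
theorem gst_of_nonneg [Finite I] [T2Space X] [ConnectedSpace X]
    (h0 : ∀ i y, 0 ≤ H.scal (G i) y) (h1 : ∃ i y, 0 < H.scal (G i) y) :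
    ∃ s > 0, ∃ w, H566.Gst C G s w ∧ Sm C w := by
  set q : X → ℝ := fun x => C.gl (fun _ i y => H.scal (G i) y) x / 4 with hqdef
  have hgl : ∀ (γ : Γ) i y, q (γ • C.ψ i y) = H.scal (G i) y / 4 := fun γ i y => by
    rw [hqdef]
    simp only
    rw [gl_eq C (a := fun _ i y => H.scal (G i) y) (fun _ _ _ _ _ _ h => scal_chart hG h) γ i y]
  have hq : Continuous q := by
    refine Vale.Agent.P223.X.Ck_continuous C fun γ i => ?_
    have : C.rep q γ i = fun y => H.scal (G i) y / 4 := funext fun y => hgl γ i y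
    rw [this]
    exact contDiff_zero.2 ((Cor.continuous_scal (hG.smooth i) (hG.pos i)).div_const 4)
  have hqi : ∀ (γ : Γ) x, q (γ • x) = q x := by
    intro γ x
    obtain ⟨γ', i, y, -, rfl⟩ := C.cover x
    rw [← mul_smul, hgl, hgl]
  have hq0 : ∀ x, 0 ≤ q x := by
    intro x
    obtain ⟨γ', i, y, -, rfl⟩ := C.cover x
    rw [hgl]
    exact div_nonneg (h0 i y) (by norm_num)
  obtain ⟨i₀, y₀, hy₀⟩ := h1
  obtain ⟨v, hv, s, hs, hvs⟩ := lemV hG hq hq0 hqi (x₀ := (1 : Γ) • C.ψ i₀ y₀)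
    (by rw [hgl]; positivity)
  -- `v` and its gradient are bounded
  set K : Set X := ⋃ i, C.ψ i '' {y : E n | ‖y‖ ≤ 1} with hKdef
  have hK : IsCompact K := isCompact_core C 1
  have hcov : ∀ x : X, ∃ (γ : Γ) (z : X), z ∈ K ∧ γ • z = x := by
    intro x
    obtain ⟨γ, i, y, hy, rfl⟩ := C.cover x
    refine ⟨γ, C.ψ i y, Set.mem_iUnion.2 ⟨i, y, ?_, rfl⟩, rfl⟩
    exact (pi_norm_le_iff_of_nonneg zero_le_one).2 fun k => by
      rw [Real.norm_eq_abs]; exact (hy k).le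
  obtain ⟨B, hB⟩ := hK.exists_bound_of_continuousOn hv.cont.continuousOn
  set b : ℝ := |B| + 1 with hb
  have hb0 : 0 < b := by positivity
  have hvb : ∀ x, |v x| ≤ |B| := by
    intro x
    obtain ⟨γ, z, hz, rfl⟩ := hcov x
    rw [hv.inv]
    have := hB z hz
    rw [Real.norm_eq_abs] at this
    exact this.trans (le_abs_self B)
  set ε : ℝ := 1 / b with hε
  have hε0 : 0 < ε := by positivity
  have hεb : ε * b = 1 := by rw [hε]; field_simp
  have hw : Sm C (fun x => 1 + ε * v x) := (Sm.const 1).add (hv.smul ε)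
  have hwl : ∀ x, ε ≤ 1 + ε * v x := by
    intro x
    have h3 := hvb x
    have h4 := (abs_le.1 h3).1
    nlinarith
  have hwu : ∀ x, 1 + ε * v x ≤ 2 := by
    intro x
    have h3 := hvb x
    have h4 := (abs_le.1 h3).2
    nlinarith
  obtain ⟨D, hD⟩ := hK.exists_bound_of_continuousOn (hw.gs_cont hG).continuousOn
  refine ⟨ε * s / 2, by positivity, fun x => 1 + ε * v x, ⟨hw.ck, fun x =>
    lt_of_lt_of_le hε0 (hwl x), ⟨(|D| + 1) / ε, fun x => ?_⟩, fun γ i y => ?_⟩, hw⟩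
  · have h5 : gsX C G (fun x => 1 + ε * v x) x ≤ |D| := by
      obtain ⟨γ, z, hz, rfl⟩ := hcov x
      rw [hw.gs_inv hG]
      have := hD z hz
      rw [Real.norm_eq_abs] at this
      exact (le_abs_self _).trans (this.trans (le_abs_self _))
    have h6 : |D| + 1 ≤ (|D| + 1) / ε * (1 + ε * v x) := by
      rw [div_mul_eq_mul_div, le_div_iff₀ hε0]
      exact mul_le_mul_of_nonneg_left (hwl x) (by positivity)
    have h7 : (0 : ℝ) ≤ |D| := abs_nonneg D
    calc _ ≤ |D| := h5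
      _ ≤ (|D| + 1) ^ 2 := by nlinarith
      _ ≤ _ := by gcongr
  · have h5 : lap (G i) (C.rep (fun x => 1 + ε * v x) γ i) y = ε * lapX C G v (γ • C.ψ i y) := by
      rw [← Vale.Agent.P223.X.lapX_eq hG hw.c2, lapX_add hG (Sm.const 1).c2 (hv.smul ε).c2,
        lapX_const hG, lapX_mul hG ε hv.c2, zero_add]
    rw [h5, ← hgl γ i y]
    have h6 := hvs (γ • C.ψ i y)
    have h7 := hwu (γ • C.ψ i y)
    have h8 := hwl (γ • C.ψ i y)
    have h9 := hq0 (γ • C.ψ i y)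
    have h10 : ε * s / 2 * (1 + ε * v (γ • C.ψ i y)) ≤ ε * s := by
      have : 0 < ε * s := by positivity
      nlinarith
    have h11 : ε * s ≤ ε * (q (γ • C.ψ i y) - lapX C G v (γ • C.ψ i y)) :=
      mul_le_mul_of_nonneg_left h6 hε0.le
    nlinarith [mul_nonneg h9 (sub_nonneg.2 h8)]

end

end Vale.Agent.P223.H850
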