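import Vale.Agent.P223.H850.W2
import Vale.Agent.P223.X.X23b
import Vale.Agent.P223.H.Evol
import Vale.Agent.P223.H.B25a

/-! `Scal = 0` and `Ric ≠ 0`: the deformation `g - t Ric`. -/

namespace Vale.Agent.P223.H850

open scoped ContDiff Topology
open MeasureTheory Vale.Agent.P223.H Vale.Agent.P223.X Vale.Agent.P223.X.Avg

section loc
variable {n : ℕ}

/-- the time derivative is jointly continuous -/
theorem cont_deriv {F : ℝ → E n → ℝ} (hF : ContDiff ℝ ∞ (fun p : ℝ × E n => F p.1 p.2)) :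
    Continuous (fun p : ℝ × E n => deriv (fun s => F s p.2) p.1) := by
  set Φ : ℝ × E n → ℝ := fun p => F p.1 p.2 with hΦ
  have hd : Differentiable ℝ Φ := hF.differentiable (by simp)
  have e : (fun p : ℝ × E n => deriv (fun s => F s p.2) p.1) =
      fun p => fderiv ℝ Φ p (1, 0) := by
    funext p
    have h1 : HasFDerivAt Φ (fderiv ℝ Φ (p.1, p.2)) (p.1, p.2) := (hd _).hasFDerivAt
    exact (h1.comp_hasDerivAt p.1 ((hasDerivAt_id p.1).prodMk (hasDerivAt_const p.1 p.2))).deriv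
  rw [e]
  have h2 : Continuous (fderiv ℝ Φ) := hF.continuous_fderiv (by simp)
  exact h2.clm_apply continuous_const

theorem cd_slice {F : ℝ → E n → ℝ} (hF : ContDiff ℝ ∞ (fun p : ℝ × E n => F p.1 p.2)) (y : E n) :
    ContDiff ℝ ∞ (fun t => F t y) :=
  hF.comp (contDiff_id.prodMk contDiff_const : ContDiff ℝ ∞ fun s : ℝ => (s, y))

theorem unif {F : ℝ → E n → ℝ} (hF : ContDiff ℝ ∞ (fun p : ℝ × E n => F p.1 p.2))
    (h0 : ∀ y, F 0 y = 0) {s : ℝ} (hs : 0 < s) (h1 : ∀ y, s ≤ deriv (fun t => F t y) 0) :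
    ∀ᶠ t in 𝓝[>] (0 : ℝ), ∀ y, ‖y‖ ≤ 1 → s / 2 * t ≤ F t y := by
  have hK : IsCompact (Metric.closedBall (0 : E n) 1) := isCompact_closedBall 0 1
  have h2 : ∀ᶠ t in 𝓝 (0 : ℝ), ∀ y ∈ Metric.closedBall (0 : E n) 1,
      s / 2 < deriv (fun t => F t y) t := by
    refine hK.eventually_forall_of_forall_eventually fun y _ => ?_
    refine (cont_deriv hF).continuousAt.eventually (lt_mem_nhds ?_)
    have := h1 y
    simp only
    linarith
  obtain ⟨t₀, ht₀, h3⟩ := Metric.eventually_nhds_iff.1 h2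
  filter_upwards [Ioo_mem_nhdsGT ht₀] with t ht y hy
  have hd : Differentiable ℝ (fun t => F t y) := by
    have : ContDiff ℝ ∞ (fun t => F t y) :=
      hF.comp (contDiff_id.prodMk contDiff_const : ContDiff ℝ ∞ fun s : ℝ => (s, y))
    exact this.differentiable (by simp)
  have h4 := (convex_Icc (0 : ℝ) t).mul_sub_le_image_sub_of_le_deriv (f := fun t => F t y)
    (C := s / 2) hd.continuous.continuousOn hd.differentiableOn (fun τ hτ => by
      rw [interior_Icc] at hτ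
      refine (h3 (y := τ) ?_ y (mem_closedBall_zero_iff.2 hy)).le
      rw [Real.dist_eq, sub_zero, abs_of_pos hτ.1]
      exact hτ.2.trans ht.2) 0 ⟨le_rfl, ht.1.le⟩ t ⟨ht.1.le, le_rfl⟩ ht.1.le
  rw [h0 y] at h4
  simpa using h4

theorem der_aux {L S : ℝ → ℝ} {v s : ℝ} (hL : DifferentiableAt ℝ L 0) (hS : HasDerivAt S s 0)
    (h0 : S 0 = 0) : HasDerivAt (fun t => -(t * L t) + S t / 4 * (1 + t * v)) (-L 0 + s / 4) 0 := by
  have h1 : HasDerivAt (fun t => t * L t) (1 * L 0 + 0 * deriv L 0) 0 :=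
    (hasDerivAt_id (0 : ℝ)).fun_mul hL.hasDerivAt
  have h2 : HasDerivAt (fun t : ℝ => 1 + t * v) (1 * v) 0 :=
    ((hasDerivAt_id (0 : ℝ)).mul_const v).const_add 1
  have h3 := h1.fun_neg.fun_add ((hS.div_const 4).fun_mul h2)
  refine h3.congr_deriv ?_
  rw [h0]
  ring

theorem cd_lap {G : ℝ → E n → Matrix (Fin n) (Fin n) ℝ}
    (hs : ∀ i j, ContDiff ℝ ∞ (fun p : ℝ × E n => G p.1 p.2 i j))
    (hp : ∀ t x, (G t x).PosDef) {f : E n → ℝ} (hf : ContDiff ℝ ∞ f) :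
    ContDiff ℝ ∞ (fun p : ℝ × E n => lap (G p.1) f p.2) := by
  unfold lap
  have hpd : ∀ k, ContDiff ℝ ∞ (fun y => H.pd k f y) := fun k =>
    Bridge.contDiff_pd hf (by simp) k
  have hpd2 : ∀ i j, ContDiff ℝ ∞ (fun y => H.pd i (fun z => H.pd j f z) y) := fun i j =>
    Bridge.contDiff_pd (hpd j) (by simp) i
  refine ContDiff.sum fun i _ => ContDiff.sum fun j _ => (B25c.cd_G_inv hs hp i j).mul ?_
  exact ((hpd2 i j).comp contDiff_snd).sub (ContDiff.sum fun k _ =>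
    (B25c.cd_chr hs hp k i j).mul ((hpd k).comp contDiff_snd))

theorem ricSq_nonneg {G : E n → Matrix (Fin n) (Fin n) ℝ} {x : E n} (hp : (G x).PosDef) :
    0 ≤ ricSq G x := by
  obtain ⟨B, m, -, -, -, r1, -⟩ := Min.frame (G x) (Min.Rm G x) hp
  have r3 : ricSq G x = ∑ a, ∑ b, m a b ^ 2 := r1
  rw [r3]
  exact Finset.sum_nonneg fun _ _ => Finset.sum_nonneg fun _ _ => sq_nonneg _

theorem ric_eq_zero {G : E n → Matrix (Fin n) (Fin n) ℝ} {x : E n} (hp : (G x).PosDef)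
    (h : ricSq G x = 0) (i j : Fin n) : H.ric G x i j = 0 := by
  obtain ⟨B, m, -, -, hR, r1, -⟩ := Min.frame (G x) (Min.Rm G x) hp
  have r3 : ricSq G x = ∑ a, ∑ b, m a b ^ 2 := r1
  rw [h] at r3
  have h1 : ∀ a b, m a b = 0 := by
    intro a b
    have h2 := (Finset.sum_eq_zero_iff_of_nonneg fun a _ => Finset.sum_nonneg fun b _ =>
      sq_nonneg (m a b)).1 r3.symm a (Finset.mem_univ a)
    have h3 := (Finset.sum_eq_zero_iff_of_nonneg fun b _ => sq_nonneg (m a b)).1 h2 b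
      (Finset.mem_univ b)
    exact pow_eq_zero_iff (two_ne_zero) |>.1 h3
  have h4 : m = 0 := by ext a b; exact h1 a b
  have h5 : Min.Rm G x i j = 0 := by
    rw [hR, h4]
    simp
  exact h5

end loc

variable {n : ℕ} {M X Γ I : Type} [TopologicalSpace M] [TopologicalSpace X] [Group Γ]
    [MulAction Γ X] {C : Cov n M X Γ I} {G : I → E n → Matrix (Fin n) (Fin n) ℝ}

theorem core_cov (x : X) : ∃ (γ : Γ) (z : X),
    z ∈ (⋃ i, C.ψ i '' {y : E n | ‖y‖ ≤ 1}) ∧ γ • z = x := by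
  obtain ⟨γ, i, y, hy, rfl⟩ := C.cover x
  refine ⟨γ, C.ψ i y, Set.mem_iUnion.2 ⟨i, y, ?_, rfl⟩, rfl⟩
  exact (pi_norm_le_iff_of_nonneg zero_le_one).2 fun k => by
    rw [Real.norm_eq_abs]; exact (hy k).le

/-- construction of `Gst` from invariant functions -/
theorem gst_mk [Finite I] (hG : MetX C G) {w : X → ℝ} (hw : Sm C w) (hp : ∀ x, 0 < w x) {s : ℝ}
    (h : ∀ i y, ‖y‖ < 1 → s * w (C.ψ i y) ≤
      -lap (G i) (C.rep w 1 i) y + H.scal (G i) y / 4 * w (C.ψ i y)) : H566.Gst C G s w := by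
  have hK : IsCompact (⋃ i, C.ψ i '' {y : E n | ‖y‖ ≤ 1}) := isCompact_core C 1
  refine ⟨hw.ck, hp, ?_, fun γ i y => ?_⟩
  · rcases (⋃ i, C.ψ i '' {y : E n | ‖y‖ ≤ 1}).eq_empty_or_nonempty with he | hne
    · refine ⟨0, fun x => ?_⟩
      obtain ⟨γ, z, hz, -⟩ := core_cov (C := C) x
      rw [he] at hz
      exact hz.elim
    obtain ⟨z₀, -, hz₀⟩ := hK.exists_isMinOn hne hw.cont.continuousOn
    obtain ⟨D, hD⟩ := hK.exists_bound_of_continuousOn (hw.gs_cont hG).continuousOn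
    refine ⟨(|D| + 1) / w z₀, fun x => ?_⟩
    obtain ⟨γ, z, hz, rfl⟩ := core_cov (C := C) x
    rw [hw.gs_inv hG, hw.inv]
    have h1 : gsX C G w z ≤ |D| := by
      have := hD z hz
      rw [Real.norm_eq_abs] at this
      exact (le_abs_self _).trans (this.trans (le_abs_self _))
    have h2 : w z₀ ≤ w z := hz₀ hz
    have h3 : |D| + 1 ≤ (|D| + 1) / w z₀ * w z := by
      rw [div_mul_eq_mul_div, le_div_iff₀ (hp z₀)]
      exact mul_le_mul_of_nonneg_left h2 (by positivity)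
    have h4 : (0 : ℝ) ≤ |D| := abs_nonneg D
    calc _ ≤ |D| := h1
      _ ≤ (|D| + 1) ^ 2 := by nlinarith
      _ ≤ _ := by gcongr
  · obtain ⟨γ', j, y', hy', hx⟩ := Vale.Agent.P223.X.exists_chart C (γ • C.ψ i y)
    rw [← Vale.Agent.P223.X.lapX_eq hG hw.c2, ← hx, hw.inv, hw.lap_inv hG]
    have h1 : H.scal (G i) y = H.scal (G j) y' := scal_chart hG hx.symm
    rw [h1]
    have h2 := h j y' hy'
    rw [← Vale.Agent.P223.X.lapX_eq hG hw.c2, one_smul] at h2
    exact h2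

/-- a path of metrics with `Scal = 0` and `d Scal / dt ≥ 0` at `t = 0` -/
theorem gst_path [Finite I] [T2Space X] [ConnectedSpace X]
    {g : ℝ → I → E n → Matrix (Fin n) (Fin n) ℝ} (hF : ∀ t, MetX C (g t))
    (hs : ∀ i a b, ContDiff ℝ ∞ (fun p : ℝ × E n => g p.1 i p.2 a b))
    (h0 : ∀ i y, H.scal (g 0 i) y = 0) {r : I → E n → ℝ} (hrc : ∀ i, Continuous (r i))
    (hder : ∀ i y, HasDerivAt (fun t => H.scal (g t i) y) (2 * r i y) 0)
    (hr0 : ∀ i y, 0 ≤ r i y) {i₀ : I} {y₀ : E n} (hr₀ : 0 < r i₀ y₀) :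
    ∃ t > 0, ∃ s > 0, ∃ w, H566.Gst C (g t) s w ∧ Sm C w := by
  have hpos : ∀ i t x, (g t i x).PosDef := fun i t x => (hF t).pos i x
  have hch : ∀ (γ γ' : Γ) (i j : I) (y y' : E n), γ • C.ψ i y = γ' • C.ψ j y' →
      r i y / 2 = r j y' / 2 := by
    intro γ γ' i j y y' h
    have h2 := hder i y
    rw [show (fun t => H.scal (g t i) y) = fun t => H.scal (g t j) y' from
      funext fun t => scal_chart (hF t) h] at h2
    have h3 := h2.unique (hder j y')
    linarith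
  set q : X → ℝ := C.gl (fun _ i y => r i y / 2) with hqdef
  have hgl : ∀ (γ : Γ) i y, q (γ • C.ψ i y) = r i y / 2 := fun γ i y =>
    gl_eq C (a := fun _ i y => r i y / 2) (fun γ γ' i i' y y' h => hch γ γ' i i' y y' h) γ i y
  have hq : Continuous q := by
    refine Vale.Agent.P223.X.Ck_continuous C fun γ i => ?_
    have : C.rep q γ i = fun y => r i y / 2 := funext fun y => hgl γ i y
    rw [this]
    exact contDiff_zero.2 ((hrc i).div_const 2)
  have hqi : ∀ (γ : Γ) x, q (γ • x) = q x := by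
    intro γ x
    obtain ⟨γ', i, y, -, rfl⟩ := C.cover x
    rw [← mul_smul, hgl, hgl]
  have hq0 : ∀ x, 0 ≤ q x := by
    intro x
    obtain ⟨γ', i, y, -, rfl⟩ := C.cover x
    rw [hgl]
    exact div_nonneg (hr0 i y) (by norm_num)
  obtain ⟨v, hv, s, hs0, hvs⟩ := lemV (hF 0) hq hq0 hqi (x₀ := (1 : Γ) • C.ψ i₀ y₀)
    (by rw [hgl]; positivity)
  -- the function
  have hcd : ∀ i, ContDiff ℝ ∞ (fun p : ℝ × E n =>
      -(p.1 * lap (g p.1 i) (C.rep v 1 i) p.2) +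
      H.scal (g p.1 i) p.2 / 4 * (1 + p.1 * C.rep v 1 i p.2)) := by
    intro i
    refine (contDiff_fst.mul (cd_lap (G := fun t => g t i) (hs i) (hpos i)
      (hv.ck 1 i))).neg.add (((B25c.cd_scal (G := fun t => g t i) (hs i) (hpos i)).div_const
        4).mul (contDiff_const.add (contDiff_fst.mul ((hv.ck 1 i).comp contDiff_snd))))
  have hu : ∀ i, ∀ᶠ t in 𝓝[>] (0 : ℝ), ∀ y, ‖y‖ ≤ 1 → s / 2 * t ≤
      -(t * lap (g t i) (C.rep v 1 i) y) + H.scal (g t i) y / 4 * (1 + t * C.rep v 1 i y) := by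
    intro i
    refine unif (F := fun t y => -(t * lap (g t i) (C.rep v 1 i) y) +
      H.scal (g t i) y / 4 * (1 + t * C.rep v 1 i y)) (hcd i) (fun y => ?_) hs0
      (fun y => ?_)
    · show -(0 * lap (g 0 i) (C.rep v 1 i) y) +
        H.scal (g 0 i) y / 4 * (1 + 0 * C.rep v 1 i y) = 0
      rw [h0 i y]
      ring
    · have hl : ContDiff ℝ ∞ (fun t => lap (g t i) (C.rep v 1 i) y) :=
        cd_slice (F := fun t z => lap (g t i) (C.rep v 1 i) z)
          (cd_lap (G := fun t => g t i) (hs i) (hpos i) (hv.ck 1 i)) y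
      have h5 := der_aux (v := C.rep v 1 i y) (hl.differentiable (by simp) 0) (hder i y) (h0 i y)
      rw [h5.deriv]
      have h6 := hvs ((1 : Γ) • C.ψ i y)
      rw [hgl, Vale.Agent.P223.X.lapX_eq (hF 0) hv.c2] at h6
      linarith
  have hK' : IsCompact (⋃ i, C.ψ i '' {y : E n | ‖y‖ ≤ 1}) := isCompact_core C 1
  obtain ⟨b, hb⟩ := hK'.exists_bound_of_continuousOn hv.cont.continuousOn
  have hvb : ∀ x, |v x| ≤ |b| := by
    intro x
    obtain ⟨γ, z, hz, rfl⟩ := core_cov (C := C) x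
    rw [hv.inv]
    have := hb z hz
    rw [Real.norm_eq_abs] at this
    exact this.trans (le_abs_self b)
  have hsm : ∀ᶠ t in 𝓝[>] (0 : ℝ), t * (|b| + 1) ≤ 1 / 2 := by
    have h7 : Filter.Tendsto (fun t : ℝ => t * (|b| + 1)) (𝓝[>] 0) (𝓝 (0 * (|b| + 1))) :=
      ((continuous_id.mul continuous_const).tendsto 0).mono_left nhdsWithin_le_nhds
    rw [zero_mul] at h7
    exact h7.eventually_le_const (by norm_num)
  obtain ⟨t, ⟨ht1, ht2⟩, ht3⟩ := (((Filter.eventually_all.2 hu).and hsm).and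
    self_mem_nhdsWithin).exists
  have ht0 : 0 < t := ht3
  refine ⟨t, ht0, s * t / 4, by positivity, fun x => 1 + t * v x, ?_,
    (Sm.const 1).add (hv.smul t)⟩
  have hw : Sm C (fun x => 1 + t * v x) := (Sm.const 1).add (hv.smul t)
  have hwl : ∀ x, 1 / 2 ≤ 1 + t * v x := by
    intro x
    have h3 := hvb x
    have h4 := (abs_le.1 h3).1
    nlinarith
  have hwu : ∀ x, 1 + t * v x ≤ 2 := by
    intro x
    have h3 := hvb x
    have h4 := (abs_le.1 h3).2
    nlinarith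
  refine gst_mk (hF t) hw (fun x => lt_of_lt_of_le (by norm_num) (hwl x)) fun i y hy => ?_
  have h8 := ht1 i y hy.le
  have h9 : lap (g t i) (C.rep (fun x => 1 + t * v x) 1 i) y =
      t * lap (g t i) (C.rep v 1 i) y := by
    have h10 := lap_add (G := g t i) (f := fun _ : E n => (1 : ℝ))
      (g := fun y => t * C.rep v 1 i y) contDiff_const (contDiff_const.mul (hv.c2 1 i)) y
    rw [lap_const, lap_smul t (hv.c2 1 i), zero_add] at h10
    exact h10
  rw [h9]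
  have h11 := hwu (C.ψ i y)
  have h12 : C.rep v 1 i y = v (C.ψ i y) := by unfold Cov.rep; rw [one_smul]
  rw [h12] at h8
  refine le_trans ?_ h8
  have h13 : 0 < s * t := by positivity
  nlinarith

/-- `Scal = 0`, `Ric ≠ 0` -/
theorem gst_of_zero [Fintype I] [T2Space X] [ConnectedSpace X] (hG : MetX C G)
    (h0 : ∀ i y, H.scal (G i) y = 0) (h1 : ∃ i y, ∃ a b, H.ric (G i) y a b ≠ 0) :
    ∃ ε t : ℝ, MetX C (fun i => Min.Gt (G i) ε t) ∧
      ∃ s > 0, ∃ w, H566.Gst C (fun i => Min.Gt (G i) ε t) s w ∧ Sm C w := by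
  obtain ⟨K, hK0, hK⟩ := X23.exists_bound hG
  obtain ⟨ε, hε⟩ : ∃ ε : ℝ, ε = 1 / (4 * K) := ⟨_, rfl⟩
  have hε0 : 0 < ε := by rw [hε]; positivity
  have hεK : 2 * ε * K < 1 := by
    rw [hε]
    have : 2 * (1 / (4 * K)) * K = 1 / 2 := by field_simp; norm_num
    rw [this]; norm_num
  have hB : SpecBianchi := B25a.main
  have hsym : ∀ i x a b, H.ric (G i) x a b = H.ric (G i) x b a := fun i x a b =>
    (hB n (G i) (hG.smooth i) (hG.pos i) x).1 a b
  have hF := X23.Gt_met hG hsym hε0 hK hεK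
  have hs : ∀ i a b, ContDiff ℝ ∞ (fun p : ℝ × E n => Min.Gt (G i) ε p.1 p.2 a b) :=
    fun i => Min.Gt_smooth (hG.smooth i) (hG.pos i)
  have hpos : ∀ i t x, (Min.Gt (G i) ε t x).PosDef := fun i t x => (hF t).pos i x
  have hz : ∀ i, Min.Gt (G i) ε 0 = G i := fun i => Min.Gt_zero (G i) ε
  have hder : ∀ i y, HasDerivAt (fun t => H.scal (Min.Gt (G i) ε t) y)
      (2 * ricSq (G i) y) 0 := by
    intro i y
    have h := Evol.dscal (G := Min.Gt (G i) ε) (hs i) (hpos i) (t := 0)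
      (fun x a b => by rw [Min.Gt_deriv hε0, hz i]) hB y
    rw [hz i] at h
    have h2 : (fun y => H.scal (G i) y) = fun _ => (0 : ℝ) := funext fun y => h0 i y
    rw [h2, lap_const, zero_add] at h
    exact h
  obtain ⟨i₀, y₀, a₀, b₀, hy₀⟩ := h1
  have hr₀ : 0 < ricSq (G i₀) y₀ := lt_of_le_of_ne (ricSq_nonneg (hG.pos i₀ y₀)) fun h =>
    hy₀ (ric_eq_zero (hG.pos i₀ y₀) h.symm a₀ b₀)
  obtain ⟨t, -, h⟩ := gst_path (C := C) (g := fun t i => Min.Gt (G i) ε t) hF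
    hs (fun i y => by simp only [hz i]; exact h0 i y) (r := fun i y => ricSq (G i) y)
    (fun i => (Min.cont_ricSq (hG.smooth i) (hG.pos i)).continuous) hder
    (fun i y => ricSq_nonneg (hG.pos i y)) hr₀
  exact ⟨ε, t, hF t, h⟩

end Vale.Agent.P223.H850
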